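import Vale.Agent.Lib.P091.Defs

open Finset Real

namespace Vale.Agent.Lib.P091

theorem node_succ (m l j : ℕ) (hl : l < m) : node m (l + 1) j = 2 * node m l j + dig m l j := by
  unfold node dig
  have h1 : m - (l + 1) = m - l - 1 := by omega
  have h2 : 2 ^ (m - l) = 2 ^ (m - l - 1) * 2 := by
    rw [← pow_succ]; congr 1; omega
  rw [h1, h2, ← Nat.div_div_eq_div_mul]
  exact (Nat.div_add_mod (j / 2 ^ (m - l - 1)) 2).symm

theorem dig_lt (m l j : ℕ) : dig m l j < 2 := by
  unfold dig; exact Nat.mod_lt _ (by norm_num)

theorem node_mono (m l : ℕ) {j j' : ℕ} (h : j ≤ j') : node m l j ≤ node m l j' :=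
  Nat.div_le_div_right h

/-- equality of nodes propagates to coarser levels. -/
theorem node_eq_of_le (m : ℕ) {l l' j j' : ℕ} (hl : l ≤ l') (hl' : l' ≤ m)
    (h : node m l' j = node m l' j') : node m l j = node m l j' := by
  induction l' , hl using Nat.le_induction with
  | base => exact h
  | succ k hk ih =>
    apply ih (by omega)
    have h1 := node_succ m k j (by omega)
    have h2 := node_succ m k j' (by omega)
    have h3 := dig_lt m k j
    have h4 := dig_lt m k j'
    rw [h1, h2] at h
    omega

theorem lt_of_dig (m l j j' : ℕ) (hl : l < m) (h : node m l j = node m l j')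
    (h0 : dig m l j = 0) (h1 : dig m l j' = 1) : j < j' := by
  by_contra hcon
  have hle : j' ≤ j := Nat.le_of_not_lt hcon
  have h2 := node_mono m (l + 1) hle
  rw [node_succ m l j hl, node_succ m l j' hl] at h2
  omega

theorem unique_level (m l1 l2 j j' : ℕ) (h1 : l1 < m) (h2 : l2 < m)
    (hn1 : node m l1 j = node m l1 j') (hn2 : node m l2 j = node m l2 j')
    (h10 : dig m l1 j = 0) (h11 : dig m l1 j' = 1)
    (h20 : dig m l2 j = 0) (h21 : dig m l2 j' = 1) : l1 = l2 := by
  by_contra hne
  wlog hlt : l1 < l2 generalizing l1 l2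
  · exact this l2 l1 h2 h1 hn2 hn1 h20 h21 h10 h11 (Ne.symm hne) (by omega)
  have h3 : node m (l1 + 1) j = node m (l1 + 1) j' := node_eq_of_le m hlt h2.le hn2
  rw [node_succ m l1 j h1, node_succ m l1 j' h1] at h3
  omega

theorem exists_level (m j j' : ℕ) (hj' : j' < 2 ^ m) (hlt : j < j') :
    ∃ l, l < m ∧ node m l j = node m l j' ∧ dig m l j = 0 ∧ dig m l j' = 1 := by
  -- induct on the level: at level `m` the nodes are different, at level `0` they agree
  have h0 : node m 0 j = node m 0 j' := by
    unfold node
    rw [Nat.sub_zero, Nat.div_eq_of_lt hj', Nat.div_eq_of_lt (by omega)]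
  have hm : node m m j ≠ node m m j' := by
    unfold node
    simp only [Nat.sub_self, pow_zero, Nat.div_one]
    omega
  -- the largest level with equal nodes
  have key : ∀ k, k ≤ m → node m k j ≠ node m k j' → ∃ l, l < k ∧ node m l j = node m l j' ∧ node m (l + 1) j ≠ node m (l + 1) j' := by
    intro k
    induction k with
    | zero =>
      intro _ h
      exact absurd h0 h
    | succ k ih =>
      intro hk h
      by_cases hc : node m k j = node m k j'
      · exact ⟨k, by omega, hc, h⟩
      · obtain ⟨l, hl, h1, h2⟩ := ih (by omega) hc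
        exact ⟨l, by omega, h1, h2⟩
  obtain ⟨l, hl, h1, h2⟩ := key m le_rfl hm
  refine ⟨l, hl, h1, ?_⟩
  have h3 := node_mono m (l + 1) hlt.le
  rw [node_succ m l j hl, node_succ m l j' hl] at h2 h3
  have h4 := dig_lt m l j
  have h5 := dig_lt m l j'
  constructor <;> omega

/-- If no collision occurs the number of common generators only sees the order of `j, jx`. -/
theorem Gc_of_not_bad (m W j jx : ℕ) (hj : j < 2 ^ m) (hjx : jx < 2 ^ m)
    (h : ¬ Bad m W j jx) : (j < jx → Gc m W j jx = 1) ∧ (jx < j → Gc m W j jx = 0) := by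
  have hnode : ∀ l ∈ Act m jx, dig m l j = 0 → win m W l j = win m W l jx → node m l j = node m l jx := by
    intro l hl h0 hw
    by_contra hne
    exact h ⟨l, hl, h0, hw, hne⟩
  constructor
  · intro hlt
    obtain ⟨l0, hl0, hn, h0, h1⟩ := exists_level m j jx hjx hlt
    unfold Gc
    rw [Finset.card_eq_one]
    refine ⟨l0, ?_⟩
    ext l
    simp only [Finset.mem_filter, Finset.mem_singleton]
    constructor
    · rintro ⟨hl, hl1, hl2⟩
      have hlm : l < m := by
        simp only [Act, Finset.mem_filter, Finset.mem_range] at hl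
        exact hl.1
      have hl3 : dig m l jx = 1 := by
        simp only [Act, Finset.mem_filter, Finset.mem_range] at hl
        exact hl.2
      exact unique_level m l l0 j jx hlm hl0 (hnode l hl hl1 hl2) hn hl1 hl3 h0 h1
    · rintro rfl
      refine ⟨?_, h0, ?_⟩
      · simp only [Act, Finset.mem_filter, Finset.mem_range]
        exact ⟨hl0, h1⟩
      · unfold win; rw [hn]
  · intro hlt
    unfold Gc
    rw [Finset.card_eq_zero, Finset.filter_eq_empty_iff]
    rintro l hl ⟨hl1, hl2⟩
    have hlm : l < m := by
      simp only [Act, Finset.mem_filter, Finset.mem_range] at hl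
      exact hl.1
    have hl3 : dig m l jx = 1 := by
      simp only [Act, Finset.mem_filter, Finset.mem_range] at hl
      exact hl.2
    have := lt_of_dig m l j jx hlm (hnode l hl hl1 hl2) hl1 hl3
    omega

end Vale.Agent.Lib.P091
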