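import Mathlib

/-!
P091: definitions for the window-hash atoms.  All digits are read from the top:
for `j < 2^m`, `node m l j` is the integer formed by the first `l` binary digits of `j`,
`dig m l j` is the digit number `l` (counted from `0`, most significant first).
-/

open Finset Real

namespace Vale.Agent.Lib.P091

/-- the first `l` binary digits of `j` (for `j < 2^m`), as an integer. -/
def node (m l j : ℕ) : ℕ := j / 2 ^ (m - l)

/-- digit number `l` of `j`, most significant first. -/
def dig (m l j : ℕ) : ℕ := j / 2 ^ (m - l - 1) % 2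

/-- the window: the last binary digits of the node, i.e. the node modulo `W`. -/
def win (m W l j : ℕ) : ℕ := node m l j % W

/-- the exponent of the frequency attached to level `l` and window `w`. -/
def ex (E0 h W l w : ℕ) : ℕ := E0 + h * (2 * W * l + (W - 1 - w))

/-- levels at which `jx` has digit one. -/
def Act (m jx : ℕ) : Finset ℕ := (range m).filter fun l => dig m l jx = 1

/-- levels at which `j` has digit zero. -/
def Zer (m j : ℕ) : Finset ℕ := (range m).filter fun l => dig m l j = 0

/-- the perturbed atom number `j`. -/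
noncomputable def atom (m E0 h W j : ℕ) : ℝ :=
  (j : ℝ) / (2 * 2 ^ m) + ∑ l ∈ Zer m j, 1 / (2 * (2 : ℝ) ^ ex E0 h W l (win m W l j))

/-- the frequency attached to the cell `jx`. -/
def actFreq (m E0 h W jx : ℕ) : ℕ := ∑ l ∈ Act m jx, 2 ^ ex E0 h W l (win m W l jx)

/-- number of common generators of `jx` (active) and `j`. -/
def Gc (m W j jx : ℕ) : ℕ :=
  ((Act m jx).filter fun l => dig m l j = 0 ∧ win m W l j = win m W l jx).card

/-- same-level phase error. -/
noncomputable def same (m W h j jx : ℕ) : ℝ :=
  ∑ l ∈ Act m jx, if dig m l j = 0 ∧ win m W l j < win m W l jx then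
    1 / (2 * (2 : ℝ) ^ (h * (win m W l jx - win m W l j))) else 0

/-- a collision at some later level. -/
def Bad (m W j jx : ℕ) : Prop :=
  ∃ l ∈ Act m jx, dig m l j = 0 ∧ win m W l j = win m W l jx ∧ node m l j ≠ node m l jx

/-- the loss at level `l` of the atom `j` as seen from the cell `jx`. -/
noncomputable def loss (m W h l j jx : ℕ) : ℝ :=
  if dig m l j = 0 ∧ node m l j ≠ node m l jx ∧ win m W l j ≤ win m W l jx then
    (if win m W l j = win m W l jx then 2
      else π * ((2 : ℝ) ^ (h * (win m W l jx - win m W l j)))⁻¹)
  else 0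

/-- the real Dirichlet kernel `∑_{|k| ≤ N} e(k s)` on the unit circle. -/
noncomputable def dirichlet (N : ℕ) (s : ℝ) : ℝ :=
  1 + 2 * ∑ k ∈ range N, cos (2 * π * ((k : ℝ) + 1) * s)

/-- cotangent on the unit circle scale. -/
noncomputable def cotp (t : ℝ) : ℝ := cos (π * t) / sin (π * t)

end Vale.Agent.Lib.P091
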