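import Vale.Agent.Lib.P091.BlockDef
import Vale.Agent.Lib.P091.Defs

open MeasureTheory Filter Topology Finset Real

namespace Vale.Agent.Lib.P091

/-- the symmetric integer interval grows by two points. -/
theorem sum_Icc_succ {A : Type*} [AddCommMonoid A] (f : ℤ → A) (N : ℕ) :
    ∑ k ∈ Finset.Icc (-(((N + 1 : ℕ)) : ℤ)) ((N + 1 : ℕ) : ℤ), f k
      = ∑ k ∈ Finset.Icc (-(N : ℤ)) N, f k + (f ((N : ℤ) + 1) + f (-((N : ℤ) + 1))) := by
  have h : Finset.Icc (-(((N + 1 : ℕ)) : ℤ)) ((N + 1 : ℕ) : ℤ)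
      = insert ((N : ℤ) + 1) (insert (-((N : ℤ) + 1)) (Finset.Icc (-(N : ℤ)) N)) := by
    ext k
    simp only [Finset.mem_Icc, Finset.mem_insert]
    push_cast
    omega
  have h1 : -((N : ℤ) + 1) ∉ Finset.Icc (-(N : ℤ)) N := by
    simp only [Finset.mem_Icc]; omega
  have h2 : (N : ℤ) + 1 ∉ insert (-((N : ℤ) + 1)) (Finset.Icc (-(N : ℤ)) N) := by
    simp only [Finset.mem_insert, Finset.mem_Icc]; omega
  rw [h, Finset.sum_insert h2, Finset.sum_insert h1]
  abel

/-- a symmetric integer sum, unfolded. -/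
theorem sum_Icc_sym {A : Type*} [AddCommMonoid A] (f : ℤ → A) (N : ℕ) :
    ∑ k ∈ Finset.Icc (-(N : ℤ)) N, f k
      = f 0 + ∑ i ∈ range N, (f ((i : ℤ) + 1) + f (-((i : ℤ) + 1))) := by
  induction N with
  | zero => simp
  | succ n ih =>
    rw [sum_Icc_succ, ih, Finset.sum_range_succ, add_assoc]

/-- the counting identity behind Fejér's kernel. -/
theorem double_sum (f : ℤ → ℂ) (M : ℕ) :
    ∑ a ∈ range (M + 1), ∑ b ∈ range (M + 1), f ((a : ℤ) - b)
      = ∑ k ∈ Finset.Icc (-(M : ℤ)) M, (((M : ℂ) + 1) - ((|k| : ℤ) : ℂ)) * f k := by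
  induction M with
  | zero => simp
  | succ M ih =>
    have e1 : ∑ a ∈ range (M + 1 + 1), ∑ b ∈ range (M + 1 + 1), f ((a : ℤ) - b)
        = ∑ a ∈ range (M + 1), ∑ b ∈ range (M + 1), f ((a : ℤ) - b)
          + ∑ a ∈ range (M + 1), f ((a : ℤ) - ((M + 1 : ℕ) : ℤ))
          + ∑ b ∈ range (M + 1), f (((M + 1 : ℕ) : ℤ) - b) + f 0 := by
      rw [Finset.sum_range_succ (fun a => ∑ b ∈ range (M + 1 + 1), f ((a : ℤ) - b))]
      rw [Finset.sum_range_succ (fun b => f (((M + 1 : ℕ) : ℤ) - (b : ℤ)))]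
      have : ∀ a ∈ range (M + 1), ∑ b ∈ range (M + 1 + 1), f ((a : ℤ) - b)
          = ∑ b ∈ range (M + 1), f ((a : ℤ) - b) + f ((a : ℤ) - ((M + 1 : ℕ) : ℤ)) := by
        intro a _; rw [Finset.sum_range_succ]
      rw [Finset.sum_congr rfl this, Finset.sum_add_distrib]
      simp only [sub_self]
      ring
    have e2 : ∑ a ∈ range (M + 1), f ((a : ℤ) - ((M + 1 : ℕ) : ℤ))
        = ∑ i ∈ range (M + 1), f (-((i : ℤ) + 1)) := by
      rw [← Finset.sum_range_reflect]
      apply Finset.sum_congr rfl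
      intro i hi
      congr 1
      have : i < M + 1 := Finset.mem_range.mp hi
      have h3 : ((M + 1 - 1 - i : ℕ) : ℤ) = (M : ℤ) - i := by omega
      rw [h3]; push_cast; ring
    have e3 : ∑ b ∈ range (M + 1), f (((M + 1 : ℕ) : ℤ) - b)
        = ∑ i ∈ range (M + 1), f ((i : ℤ) + 1) := by
      rw [← Finset.sum_range_reflect]
      apply Finset.sum_congr rfl
      intro i hi
      congr 1
      have : i < M + 1 := Finset.mem_range.mp hi
      have h3 : ((M + 1 - 1 - i : ℕ) : ℤ) = (M : ℤ) - i := by omega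
      rw [h3]; push_cast; ring
    have e4 : ∑ k ∈ Finset.Icc (-((M + 1 : ℕ) : ℤ)) ((M + 1 : ℕ) : ℤ),
          ((((M + 1 : ℕ) : ℂ) + 1) - ((|k| : ℤ) : ℂ)) * f k
        = ∑ k ∈ Finset.Icc (-((M + 1 : ℕ) : ℤ)) ((M + 1 : ℕ) : ℤ), f k
          + ∑ k ∈ Finset.Icc (-((M + 1 : ℕ) : ℤ)) ((M + 1 : ℕ) : ℤ),
              (((M + 1 : ℕ) : ℂ) - ((|k| : ℤ) : ℂ)) * f k := by
      rw [← Finset.sum_add_distrib]
      apply Finset.sum_congr rfl
      intro k _
      ring
    have e5 : ∑ k ∈ Finset.Icc (-((M + 1 : ℕ) : ℤ)) ((M + 1 : ℕ) : ℤ),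
          (((M + 1 : ℕ) : ℂ) - ((|k| : ℤ) : ℂ)) * f k
        = ∑ k ∈ Finset.Icc (-(M : ℤ)) M, (((M : ℂ) + 1) - ((|k| : ℤ) : ℂ)) * f k := by
      rw [sum_Icc_succ]
      have h1 : |(M : ℤ) + 1| = (M : ℤ) + 1 := abs_of_nonneg (by omega)
      have h2 : |-((M : ℤ) + 1)| = (M : ℤ) + 1 := by rw [abs_neg, h1]
      rw [h1, h2]
      push_cast
      simp only [sub_self, zero_mul, add_zero]
    rw [e1, e2, e3, e4, e5, ih, sum_Icc_sym f (M + 1)]
    rw [Finset.sum_add_distrib]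
    ring

section Circle


variable {T : ℝ} [hT : Fact (0 < T)]

/-- the coefficient of Fejér's kernel. -/
noncomputable def coef (M : ℕ) (k : ℤ) : ℂ := (((M : ℂ) + 1) - ((|k| : ℤ) : ℂ)) / ((M : ℂ) + 1)

/-- Fejér's kernel, as a normalized square. -/
noncomputable def fej (M : ℕ) (u : AddCircle T) : ℝ :=
  (1 / ((M : ℝ) + 1)) * ‖∑ a ∈ range (M + 1), fourier (a : ℤ) u‖ ^ 2

theorem fourier_add_apply (k : ℤ) (x y : AddCircle T) :
    fourier k (x + y) = fourier k x * fourier k y := by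
  simp only [fourier_apply, zsmul_add, AddCircle.toCircle_add, Circle.coe_mul]

theorem fej_expand (M : ℕ) (u : AddCircle T) :
    ((fej M u : ℝ) : ℂ) = ∑ k ∈ Finset.Icc (-(M : ℤ)) M, coef M k * fourier k u := by
  have hM : ((M : ℂ) + 1) ≠ 0 := by exact_mod_cast Nat.succ_ne_zero M
  have h1 : ((‖∑ a ∈ range (M + 1), fourier (a : ℤ) u‖ ^ 2 : ℝ) : ℂ)
      = ∑ a ∈ range (M + 1), ∑ b ∈ range (M + 1), fourier ((a : ℤ) - b) u := by
    push_cast
    rw [← Complex.mul_conj', map_sum, Finset.sum_mul_sum]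
    apply Finset.sum_congr rfl; intro a _
    apply Finset.sum_congr rfl; intro b _
    rw [sub_eq_add_neg, fourier_add, fourier_neg]
  unfold fej
  rw [Complex.ofReal_mul, h1, double_sum (fun k => fourier k u) M, Finset.mul_sum]
  apply Finset.sum_congr rfl; intro k _
  unfold coef
  push_cast
  field_simp

theorem fej_nonneg (M : ℕ) (u : AddCircle T) : 0 ≤ fej M u := by
  unfold fej; positivity

theorem fej_le (M : ℕ) (u : AddCircle T) : fej M u ≤ (M : ℝ) + 1 := by
  have hM : (0 : ℝ) < (M : ℝ) + 1 := by positivity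
  have h1 : ‖∑ a ∈ range (M + 1), fourier (a : ℤ) u‖ ≤ (M : ℝ) + 1 := by
    calc ‖∑ a ∈ range (M + 1), fourier (a : ℤ) u‖
        ≤ ∑ a ∈ range (M + 1), ‖fourier (a : ℤ) u‖ := norm_sum_le _ _
      _ = ∑ a ∈ range (M + 1), (1 : ℝ) := by
          apply Finset.sum_congr rfl; intro a _; exact Circle.norm_coe _
      _ = (M : ℝ) + 1 := by simp
  unfold fej
  have h2 : ‖∑ a ∈ range (M + 1), fourier (a : ℤ) u‖ ^ 2 ≤ ((M : ℝ) + 1) ^ 2 :=
    pow_le_pow_left₀ (norm_nonneg _) h1 2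
  calc 1 / ((M : ℝ) + 1) * ‖∑ a ∈ range (M + 1), fourier (a : ℤ) u‖ ^ 2
      ≤ 1 / ((M : ℝ) + 1) * ((M : ℝ) + 1) ^ 2 := by
        apply mul_le_mul_of_nonneg_left h2; positivity
    _ = (M : ℝ) + 1 := by field_simp

theorem fej_continuous (M : ℕ) : Continuous (fej (T := T) M) := by
  unfold fej
  apply Continuous.mul continuous_const
  apply Continuous.pow
  apply Continuous.norm
  apply continuous_finsetSum
  intro a _
  exact (fourier (a : ℤ)).continuous

theorem integral_fourier_eq (k : ℤ) :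
    ∫ x, fourier k x ∂(AddCircle.haarAddCircle (T := T)) = if k = 0 then 1 else 0 := by
  split_ifs with h
  · subst h
    simp
  · exact integral_eq_zero_of_add_right_eq_neg (fourier_add_half_inv_index h hT.elim)

theorem integrable_fourier (k : ℤ) :
    Integrable (fun x => fourier k x) (AddCircle.haarAddCircle (T := T)) :=
  (fourier k).continuous.integrable_of_hasCompactSupport (HasCompactSupport.of_compactSpace _)

/-- the average of translated Fejér kernels. -/
noncomputable def gav (M K : ℕ) (p : ℕ → AddCircle T) (x : AddCircle T) : ℝ :=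
  (1 / (K : ℝ)) * ∑ j ∈ range K, fej M (x - p j)

/-- the Fourier coefficients of `gav`. -/
noncomputable def cav (M K : ℕ) (p : ℕ → AddCircle T) (k : ℤ) : ℂ :=
  coef M k * ((1 / (K : ℂ)) * ∑ j ∈ range K, fourier k (-p j))

/-- symmetric sums of `cav`, for any cutoff. -/
theorem cav_sum (M K : ℕ) (p : ℕ → AddCircle T) (x : AddCircle T) (n : ℕ) :
    ∑ k ∈ Finset.Icc (-(n : ℤ)) n, cav M K p k • fourier k x
      = (1 / (K : ℂ)) * ∑ j ∈ range K, ∑ k ∈ Finset.Icc (-(n : ℤ)) n, coef M k * fourier k (x - p j) := by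
  rw [Finset.sum_comm, Finset.mul_sum]
  apply Finset.sum_congr rfl; intro k _
  unfold cav
  rw [smul_eq_mul, Finset.mul_sum, Finset.mul_sum, Finset.mul_sum, Finset.sum_mul]
  apply Finset.sum_congr rfl; intro j _
  rw [sub_eq_add_neg, fourier_add_apply]
  ring

theorem gav_expand (M K : ℕ) (p : ℕ → AddCircle T) (x : AddCircle T) :
    ((gav M K p x : ℝ) : ℂ) = ∑ k ∈ Finset.Icc (-(M : ℤ)) M, cav M K p k • fourier k x := by
  rw [cav_sum]
  unfold gav
  push_cast
  congr 1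
  apply Finset.sum_congr rfl; intro j _
  rw [fej_expand]

theorem gav_continuous (M K : ℕ) (p : ℕ → AddCircle T) : Continuous (gav M K p) := by
  unfold gav
  apply Continuous.mul continuous_const
  apply continuous_finsetSum
  intro j _
  exact (fej_continuous M).comp (continuous_id.sub continuous_const)

theorem gav_nonneg (M K : ℕ) (p : ℕ → AddCircle T) (x : AddCircle T) : 0 ≤ gav M K p x := by
  unfold gav
  apply mul_nonneg (by positivity)
  exact Finset.sum_nonneg fun j _ => fej_nonneg M _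

theorem gav_le (M K : ℕ) (hK : 0 < K) (p : ℕ → AddCircle T) (x : AddCircle T) :
    gav M K p x ≤ (M : ℝ) + 1 := by
  unfold gav
  have hK' : (0 : ℝ) < K := by exact_mod_cast hK
  have h : ∑ j ∈ range K, fej M (x - p j) ≤ (K : ℝ) * ((M : ℝ) + 1) := by
    calc ∑ j ∈ range K, fej M (x - p j) ≤ ∑ j ∈ range K, ((M : ℝ) + 1) :=
          Finset.sum_le_sum fun j _ => fej_le M _
      _ = (K : ℝ) * ((M : ℝ) + 1) := by simp; ring
  calc 1 / (K : ℝ) * ∑ j ∈ range K, fej M (x - p j) ≤ 1 / (K : ℝ) * ((K : ℝ) * ((M : ℝ) + 1)) := by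
        apply mul_le_mul_of_nonneg_left h; positivity
    _ = (M : ℝ) + 1 := by field_simp

theorem gav_integral (M K : ℕ) (hK : 0 < K) (p : ℕ → AddCircle T) :
    ∫ x, gav M K p x ∂(AddCircle.haarAddCircle (T := T)) = 1 := by
  have hK' : (K : ℂ) ≠ 0 := by exact_mod_cast hK.ne'
  have hM : ((M : ℂ) + 1) ≠ 0 := by exact_mod_cast Nat.succ_ne_zero M
  have h : ((∫ x, gav M K p x ∂(AddCircle.haarAddCircle (T := T)) : ℝ) : ℂ) = 1 := by
    rw [← integral_complex_ofReal]
    simp_rw [gav_expand]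
    rw [integral_finsetSum]
    · simp_rw [smul_eq_mul, integral_const_mul, integral_fourier_eq]
      simp only [mul_ite, mul_one, mul_zero]
      rw [Finset.sum_ite_eq']
      rw [if_pos (by simp)]
      unfold cav coef
      simp
      field_simp
    · intro k _
      simp only [smul_eq_mul]
      exact (integrable_fourier k).const_mul _
  exact_mod_cast h

/-- evaluation at a real point. -/
theorem fourier_real (k : ℤ) (s : ℝ) :
    fourier k (((T * s : ℝ)) : AddCircle T) = Complex.exp (2 * π * Complex.I * k * s) := by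
  have hT0 : (T : ℂ) ≠ 0 := by exact_mod_cast hT.out.ne'
  rw [fourier_coe_apply]
  congr 1
  push_cast
  field_simp

/-- real part of the truncated Fejér sum. -/
theorem re_sum (M n : ℕ) (s : ℝ) :
    (∑ k ∈ Finset.Icc (-(n : ℤ)) n, coef M k * fourier k (((T * s : ℝ)) : AddCircle T)).re
      = 1 + ∑ i ∈ range n, 2 * (1 - ((i : ℝ) + 1) / ((M : ℝ) + 1)) * cos (2 * π * ((i : ℝ) + 1) * s) := by
  have hM : ((M : ℂ) + 1) ≠ 0 := by exact_mod_cast Nat.succ_ne_zero M
  have hMr : ((M : ℝ) + 1) ≠ 0 := by positivity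
  rw [sum_Icc_sym, Complex.add_re, Complex.re_sum]
  congr 1
  · unfold coef
    simp
    rw [div_self hM]; simp
  · apply Finset.sum_congr rfl; intro i _
    have h1 : coef M ((i : ℤ) + 1) = (((1 - ((i : ℝ) + 1) / ((M : ℝ) + 1) : ℝ)) : ℂ) := by
      unfold coef
      have : |(i : ℤ) + 1| = (i : ℤ) + 1 := abs_of_nonneg (by omega)
      rw [this]; push_cast; field_simp
    have h2 : coef M (-((i : ℤ) + 1)) = (((1 - ((i : ℝ) + 1) / ((M : ℝ) + 1) : ℝ)) : ℂ) := by
      unfold coef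
      have : |-((i : ℤ) + 1)| = (i : ℤ) + 1 := by rw [abs_neg]; exact abs_of_nonneg (by omega)
      rw [this]; push_cast; field_simp
    rw [h1, h2, fourier_real, fourier_real, Complex.add_re, Complex.re_ofReal_mul, Complex.re_ofReal_mul]
    have h3 : ∀ θ : ℝ, (Complex.exp (θ * Complex.I)).re = cos θ := fun θ => by
      rw [Complex.exp_ofReal_mul_I_re]
    have h4 : (2 * π * Complex.I * (((i : ℤ) + 1 : ℤ) : ℂ) * (s : ℂ))
        = (((2 * π * ((i : ℝ) + 1) * s : ℝ)) : ℂ) * Complex.I := by push_cast; ring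
    have h5 : (2 * π * Complex.I * ((-((i : ℤ) + 1) : ℤ) : ℂ) * (s : ℂ))
        = ((-(2 * π * ((i : ℝ) + 1) * s) : ℝ) : ℂ) * Complex.I := by push_cast; ring
    rw [h4, h5, h3, h3, cos_neg]
    ring

theorem re_sum_ge (M n : ℕ) (hn : n * (n + 1) ≤ M + 1) (s : ℝ) :
    dirichlet n s - 1 ≤
      (∑ k ∈ Finset.Icc (-(n : ℤ)) n, coef M k * fourier k (((T * s : ℝ)) : AddCircle T)).re := by
  have hMr : (0 : ℝ) < (M : ℝ) + 1 := by positivity
  rw [re_sum]
  unfold dirichlet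
  have h1 : ∑ i ∈ range n, 2 * ((i : ℝ) + 1) = (n : ℝ) * ((n : ℝ) + 1) := by
    clear hn
    induction n with
    | zero => simp
    | succ n ih => rw [Finset.sum_range_succ, ih]; push_cast; ring
  have h2 : ∑ i ∈ range n, 2 * ((i : ℝ) + 1) / ((M : ℝ) + 1) ≤ 1 := by
    rw [← Finset.sum_div, h1, div_le_one hMr]
    exact_mod_cast hn
  have h3 : ∑ i ∈ range n, (2 * cos (2 * π * ((i : ℝ) + 1) * s) - 2 * ((i : ℝ) + 1) / ((M : ℝ) + 1))
      ≤ ∑ i ∈ range n, 2 * (1 - ((i : ℝ) + 1) / ((M : ℝ) + 1)) * cos (2 * π * ((i : ℝ) + 1) * s) := by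
    apply Finset.sum_le_sum; intro i _
    have h4 := cos_le_one (2 * π * ((i : ℝ) + 1) * s)
    have h5 : 0 ≤ ((i : ℝ) + 1) / ((M : ℝ) + 1) := by positivity
    have h6 : 2 * ((i : ℝ) + 1) / ((M : ℝ) + 1) = 2 * (((i : ℝ) + 1) / ((M : ℝ) + 1)) := by ring
    rw [h6]
    nlinarith
  rw [Finset.sum_sub_distrib, ← Finset.mul_sum] at h3
  linarith



/-- the sub-interval of the cell number `j`. -/
def cellI (T : ℝ) (K j : ℕ) : Set ℝ :=
  Set.Icc (T * (((j : ℝ) + 1 / 128) / (2 * (K : ℝ)))) (T * (((j : ℝ) + 2 / 128) / (2 * (K : ℝ))))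

/-- the union of the sub-intervals. -/
def setS (T : ℝ) (K : ℕ) : Set ℝ := ⋃ j ∈ range K, cellI T K j

/-- the set on the circle. -/
def setE (T : ℝ) [Fact (0 < T)] (K : ℕ) : Set (AddCircle T) := (fun s : ℝ => (s : AddCircle T)) '' setS T K

theorem setS_compact (K : ℕ) : IsCompact (setS T K) :=
  (Finset.range K).isCompact_biUnion fun _ _ => isCompact_Icc

theorem setE_measurable (K : ℕ) : MeasurableSet (setE T K) := by
  have h : IsCompact (setE T K) := (setS_compact K).image (AddCircle.continuous_mk' T)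
  exact h.measurableSet

theorem setS_volume (K : ℕ) (hK : 0 < K) :
    volume (setS T K) = ENNReal.ofReal (T / 256) := by
  have hT0 : 0 < T := hT.out
  have hK' : (0 : ℝ) < K := by exact_mod_cast hK
  have hd : ((range K : Finset ℕ) : Set ℕ).PairwiseDisjoint (cellI T K) := by
    have key : ∀ i j : ℕ, i < j → T * (((i : ℝ) + 2 / 128) / (2 * (K : ℝ)))
        < T * (((j : ℝ) + 1 / 128) / (2 * (K : ℝ))) := by
      intro i j hij
      apply mul_lt_mul_of_pos_left _ hT0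
      apply div_lt_div_of_pos_right _ (by positivity)
      have : (i : ℝ) + 1 ≤ j := by exact_mod_cast hij
      linarith
    intro i _ j _ hij
    apply Set.disjoint_left.mpr
    intro s hi hj
    rcases lt_or_gt_of_ne hij with h | h
    · have := key i j h
      have h1 := hi.2
      have h2 := hj.1
      linarith
    · have := key j i h
      have h1 := hj.2
      have h2 := hi.1
      linarith
  unfold setS
  rw [measure_biUnion_finset hd (fun _ _ => measurableSet_Icc)]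
  have h1 : ∀ j ∈ range K, volume (cellI T K j) = ENNReal.ofReal (T / (256 * (K : ℝ))) := by
    intro j _
    unfold cellI
    rw [Real.volume_Icc]
    congr 1
    field_simp
    ring
  rw [Finset.sum_congr rfl h1, Finset.sum_const, Finset.card_range, nsmul_eq_mul]
  rw [← ENNReal.ofReal_natCast, ← ENNReal.ofReal_mul hK'.le]
  congr 1
  field_simp

theorem setS_sub (K : ℕ) (hK : 0 < K) : setS T K ⊆ Set.Ioc 0 (0 + T) := by
  have hT0 : 0 < T := hT.out
  have hK' : (0 : ℝ) < K := by exact_mod_cast hK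
  intro s hs
  simp only [setS, Set.mem_iUnion, exists_prop, Finset.mem_range] at hs
  obtain ⟨j, hj, h1, h2⟩ := hs
  have hj' : (j : ℝ) + 1 ≤ K := by exact_mod_cast hj
  have hj0 : (0 : ℝ) ≤ j := by positivity
  constructor
  · refine lt_of_lt_of_le ?_ h1
    positivity
  · rw [zero_add]
    refine h2.trans ?_
    have : ((j : ℝ) + 2 / 128) / (2 * (K : ℝ)) ≤ 1 := by
      rw [div_le_one (by positivity)]
      linarith
    nlinarith

theorem setE_measure (K : ℕ) (hK : 0 < K) :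
    ENNReal.ofReal (1 / 256) ≤ AddCircle.haarAddCircle (setE T K) := by
  have hT0 : 0 < T := hT.out
  have hmp := AddCircle.measurePreserving_mk T 0
  have h1 := hmp.measure_preimage (setE_measurable (T := T) K).nullMeasurableSet
  have hSm : MeasurableSet (setS T K) := (setS_compact K).measurableSet
  have h2 : volume (setS T K) ≤ volume (setE T K) := by
    rw [← h1]
    calc volume (setS T K) = (volume.restrict (Set.Ioc 0 (0 + T))) (setS T K) := by
          rw [Measure.restrict_apply hSm, Set.inter_eq_left.mpr (setS_sub K hK)]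
      _ ≤ _ := by
          apply measure_mono
          exact Set.subset_preimage_image _ _
  rw [setS_volume K hK, AddCircle.volume_eq_smul_haarAddCircle, Measure.smul_apply, smul_eq_mul] at h2
  have h3 : ENNReal.ofReal (T / 256) = ENNReal.ofReal T * ENNReal.ofReal (1 / 256) := by
    rw [← ENNReal.ofReal_mul hT0.le]; congr 1; ring
  rw [h3] at h2
  exact (ENNReal.mul_le_mul_iff_right (by simpa using hT0) ENNReal.ofReal_ne_top).mp h2

end Circle

/-- the bound for the frequencies in the main lemma. -/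
def Nmax' (m : ℕ) : ℕ := 2 ^ (m + 20 + 2 * 10 * (256 * (m + 1)) * m + m + 1)

theorem log_bound (m : ℕ) (hm : 1 ≤ m) :
    Real.log ((((Nmax' m + 1) ^ 2 : ℕ) : ℝ) + 1) ≤ 30000 * (m : ℝ) ^ 2 := by
  set e := m + 20 + 2 * 10 * (256 * (m + 1)) * m + m + 1 with he
  have h1 : (1 : ℝ) ≤ (2 : ℝ) ^ e := one_le_pow₀ (by norm_num)
  have h2 : (((Nmax' m + 1) ^ 2 : ℕ) : ℝ) + 1 ≤ (2 : ℝ) ^ (2 * e + 3) := by
    have e1 : (((Nmax' m + 1) ^ 2 : ℕ) : ℝ) = ((2 : ℝ) ^ e + 1) ^ 2 := by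
      unfold Nmax'; push_cast; rfl
    have e2 : (2 : ℝ) ^ (2 * e + 3) = 8 * ((2 : ℝ) ^ e) ^ 2 := by
      rw [pow_add, pow_mul']; ring
    rw [e1, e2]
    nlinarith
  have h3 : (0 : ℝ) < (((Nmax' m + 1) ^ 2 : ℕ) : ℝ) + 1 := by positivity
  have h4 := Real.log_le_log h3 h2
  rw [Real.log_pow] at h4
  have h5 : Real.log 2 ≤ 1 := by
    have := Real.log_two_lt_d9; linarith
  have h6 : (0 : ℝ) ≤ ((2 * e + 3 : ℕ) : ℝ) := by positivity
  have h7 : ((2 * e + 3 : ℕ) : ℝ) ≤ 30000 * (m : ℝ) ^ 2 := by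
    have hm' : (1 : ℝ) ≤ m := by exact_mod_cast hm
    rw [he]; push_cast
    nlinarith
  calc Real.log ((((Nmax' m + 1) ^ 2 : ℕ) : ℝ) + 1) ≤ ((2 * e + 3 : ℕ) : ℝ) * Real.log 2 := h4
    _ ≤ ((2 * e + 3 : ℕ) : ℝ) * 1 := by apply mul_le_mul_of_nonneg_left h5 h6
    _ ≤ 30000 * (m : ℝ) ^ 2 := by linarith

/-- from the main lemma (`hmain`, proved in `MainLemma.lean`) to the block family. -/
theorem blockFamily_of_main (T : ℝ) [hT : Fact (0 < T)]
    (hmain : ∀ m : ℕ, 2000 ≤ m → ∀ jx : ℕ, jx < 2 ^ m → ∀ ξ : ℝ, 1 / 128 ≤ ξ → ξ ≤ 2 / 128 →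
      ∃ N : ℕ, N ≤ Nmax' m ∧ (m : ℝ) / 10 ≤ (1 / (2 : ℝ) ^ m) *
        ∑ j ∈ range (2 ^ m), dirichlet N (((jx : ℝ) + ξ) / (2 * 2 ^ m) - atom m (m + 20) 10 (256 * (m + 1)) j)) :
    BlockFamily T := by
  refine ⟨30000, 1 / 256, 2000, by norm_num, by norm_num, ?_⟩
  intro m hm
  have hT0 : 0 < T := hT.out
  have hK : 0 < 2 ^ m := by positivity
  let p : ℕ → AddCircle T := fun j => ((T * atom m (m + 20) 10 (256 * (m + 1)) j : ℝ) : AddCircle T)
  let M : ℕ := (Nmax' m + 1) ^ 2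
  refine ⟨M, cav M (2 ^ m) p, gav M (2 ^ m) p, setE T (2 ^ m), gav_continuous _ _ _, gav_nonneg _ _ _,
    gav_expand _ _ _, gav_integral _ _ hK _, gav_le _ _ hK _, ?_, setE_measurable _, setE_measure _ hK, ?_⟩
  · exact log_bound m (by omega)
  · rintro x ⟨s, hs, rfl⟩
    simp only [setS, Set.mem_iUnion, exists_prop, Finset.mem_range] at hs
    obtain ⟨jx, hjx, hs1, hs2⟩ := hs
    have hKr : (0 : ℝ) < ((2 ^ m : ℕ) : ℝ) := by exact_mod_cast hK
    have hKc : ((2 ^ m : ℕ) : ℝ) = (2 : ℝ) ^ m := by push_cast; rfl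
    rw [hKc] at hs1 hs2 hKr
    set ξ : ℝ := s / T * (2 * 2 ^ m) - jx with hξ
    have hst : s / T = ((jx : ℝ) + ξ) / (2 * 2 ^ m) := by
      rw [hξ]; field_simp; ring
    have h1 : 1 / 128 ≤ ξ := by
      have : (((jx : ℝ) + 1 / 128) / (2 * 2 ^ m)) ≤ s / T := by
        rw [le_div_iff₀ hT0]; linarith
      rw [div_le_iff₀ (by positivity)] at this
      rw [hξ]; linarith
    have h2 : ξ ≤ 2 / 128 := by
      have : s / T ≤ (((jx : ℝ) + 2 / 128) / (2 * 2 ^ m)) := by
        rw [div_le_iff₀ hT0]; linarith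
      rw [le_div_iff₀ (by positivity)] at this
      rw [hξ]; linarith
    obtain ⟨N, hN, hsum⟩ := hmain m hm jx hjx ξ h1 h2
    have hNM : N ≤ M := by
      calc N ≤ Nmax' m + 1 := by omega
        _ ≤ (Nmax' m + 1) ^ 2 := Nat.le_self_pow (by norm_num) _
    refine ⟨N, hNM, ?_⟩
    have hN2 : N * (N + 1) ≤ M + 1 := by
      have : N * (N + 1) ≤ (Nmax' m + 1) * (Nmax' m + 1) :=
        Nat.mul_le_mul (by omega) (by omega)
      show N * (N + 1) ≤ (Nmax' m + 1) ^ 2 + 1
      nlinarith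
    rw [cav_sum]
    refine le_trans ?_ (Complex.re_le_norm _)
    have e0 : ((1 / ((2 ^ m : ℕ) : ℂ)) : ℂ) = ((1 / (2 : ℝ) ^ m : ℝ) : ℂ) := by push_cast; rfl
    rw [e0, Complex.re_ofReal_mul, Complex.re_sum]
    have hterm : ∀ j ∈ range (2 ^ m), dirichlet N (((jx : ℝ) + ξ) / (2 * 2 ^ m) - atom m (m + 20) 10 (256 * (m + 1)) j) - 1
        ≤ (∑ k ∈ Finset.Icc (-(N : ℤ)) N, coef M k * fourier k ((s : AddCircle T) - p j)).re := by
      intro j _
      have e1 : ((s : AddCircle T) - p j)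
          = ((T * (((jx : ℝ) + ξ) / (2 * 2 ^ m) - atom m (m + 20) 10 (256 * (m + 1)) j) : ℝ) : AddCircle T) := by
        rw [← hst]
        have : T * (s / T - atom m (m + 20) 10 (256 * (m + 1)) j)
            = s - T * atom m (m + 20) 10 (256 * (m + 1)) j := by field_simp
        rw [this]
        rfl
      rw [e1]
      exact re_sum_ge (T := T) M N hN2 _
    have hsum2 := Finset.sum_le_sum hterm
    rw [Finset.sum_sub_distrib] at hsum2
    simp only [Finset.sum_const, Finset.card_range, nsmul_eq_mul, mul_one] at hsum2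
    have hmr : (2000 : ℝ) ≤ m := by exact_mod_cast hm
    have hinv : (0 : ℝ) ≤ 1 / (2 : ℝ) ^ m := by positivity
    have hfin := mul_le_mul_of_nonneg_left hsum2 hinv
    rw [mul_sub, hKc] at hfin
    have e2 : 1 / (2 : ℝ) ^ m * (2 : ℝ) ^ m = 1 := by field_simp
    rw [e2] at hfin
    linarith

end Vale.Agent.Lib.P091
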