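import Mathlib

/-!
P091: the interface between the finite construction and the gliding hump.
-/

open MeasureTheory Filter Topology

namespace Vale.Agent.Lib.P091

/-- what the finite construction provides on the circle of period `T`:
for all large `m` a nonnegative trigonometric polynomial `g` of degree `≤ M` with integral `1`,
`g ≤ M + 1`, `log (M + 1) ≤ C m²`, and a set `E` of measure at least `c0` on which some symmetric
partial sum of `g` has size at least `m / 20`. -/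
def BlockFamily (T : ℝ) [Fact (0 < T)] : Prop :=
  ∃ (C c0 : ℝ) (m0 : ℕ), 0 < C ∧ 0 < c0 ∧ ∀ m : ℕ, m0 ≤ m →
    ∃ (M : ℕ) (c : ℤ → ℂ) (g : AddCircle T → ℝ) (E : Set (AddCircle T)),
      Continuous g ∧ (∀ x, 0 ≤ g x) ∧
      (∀ x, (g x : ℂ) = ∑ k ∈ Finset.Icc (-(M : ℤ)) M, c k • fourier k x) ∧
      (∫ x, g x ∂AddCircle.haarAddCircle = 1) ∧ (∀ x, g x ≤ M + 1) ∧
      Real.log (M + 1) ≤ C * (m : ℝ) ^ 2 ∧
      MeasurableSet E ∧ ENNReal.ofReal c0 ≤ AddCircle.haarAddCircle E ∧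
      ∀ x ∈ E, ∃ n : ℕ, n ≤ M ∧
        (m : ℝ) / 20 ≤ ‖∑ k ∈ Finset.Icc (-(n : ℤ)) n, c k • fourier k x‖

end Vale.Agent.Lib.P091
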