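import Vale.Agent.Lib.P091.BlockDef

/-!
P091: the gliding hump.  From `BlockFamily T` to divergence in `φ(L)`.
-/

open MeasureTheory Filter Topology

namespace Vale.Agent.Lib.P091

section general

variable {α : Type*} [MeasurableSpace α] {μ : Measure α} {E : Type*} [NormedAddCommGroup E]

lemma tsum_lintegral_ne_top {F : ℕ → α → E} (hF : ∀ i, Integrable (F i) μ)
    (hs : Summable fun i => ∫ a, ‖F i a‖ ∂μ) : ∑' i, ∫⁻ a, ‖F i a‖ₑ ∂μ ≠ ⊤ := by
  have h1 (i : ℕ) : ∫⁻ a, ‖F i a‖ₑ ∂μ = ‖∫ a, ‖F i a‖ ∂μ‖ₑ := by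
    dsimp [enorm]
    rw [lintegral_coe_eq_integral _ (hF i).norm, ENNReal.coe_nnreal_eq, coe_nnnorm,
      Real.norm_of_nonneg (integral_nonneg (fun a ↦ norm_nonneg (F i a)))]
    simp only [coe_nnnorm]
  rw [funext h1]
  exact ENNReal.tsum_coe_ne_top_iff_summable.2 <| NNReal.summable_coe.1 hs.abs

lemma ae_summable_norm_of_integral {F : ℕ → α → E} (hF : ∀ i, Integrable (F i) μ)
    (hs : Summable fun i => ∫ a, ‖F i a‖ ∂μ) : ∀ᵐ a ∂μ, Summable fun i => ‖F i a‖ := by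
  have hf'' i : AEMeasurable (‖F i ·‖ₑ) μ := (hF i).1.enorm
  have hf' := tsum_lintegral_ne_top hF hs
  rw [← lintegral_tsum hf''] at hf'
  refine (ae_lt_top' (AEMeasurable.tsum hf'') hf').mono ?_
  intro x hx
  have h2 : Summable fun n => (‖F n x‖₊ : ℝ) := by
    rw [← ENNReal.tsum_coe_ne_top_iff_summable_coe]
    exact hx.ne
  simpa using h2

lemma integrable_tsum_of_integral [NormedSpace ℝ E] [CompleteSpace E] {F : ℕ → α → E}
    (hF : ∀ i, Integrable (F i) μ)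
    (hs : Summable fun i => ∫ a, ‖F i a‖ ∂μ) : Integrable (fun a => ∑' i, F i a) μ := by
  have hae := ae_summable_norm_of_integral hF hs
  refine ⟨?_, ?_⟩
  · refine aestronglyMeasurable_of_tendsto_ae atTop
      (f := fun (n : ℕ) a => ∑ i ∈ Finset.range n, F i a) ?_ ?_
    · intro n
      exact Finset.aestronglyMeasurable_fun_sum _ fun i _ => (hF i).1
    · filter_upwards [hae] with a ha
      exact ha.of_norm.hasSum.tendsto_sum_nat
  · have hf'' i : AEMeasurable (‖F i ·‖ₑ) μ := (hF i).1.enorm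
    have h1 := tsum_lintegral_ne_top hF hs
    rw [← lintegral_tsum hf''] at h1
    refine lt_of_le_of_lt (lintegral_mono fun a => ?_) (lt_top_iff_ne_top.2 h1)
    exact enorm_tsum_le_tsum_enorm

end general

section fourier

open AddCircle

variable {T : ℝ} [hT : Fact (0 < T)]

lemma integral_fourier_eq (n : ℤ) :
    ∫ x, (fourier n (x : AddCircle T) : ℂ) ∂(haarAddCircle (T := T)) = if n = 0 then 1 else 0 := by
  split_ifs with h
  · subst h
    simp
  · exact integral_eq_zero_of_add_right_eq_neg (μ := haarAddCircle)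
      (fourier_add_half_inv_index h hT.elim)

lemma integrable_fourier (n : ℤ) :
    Integrable (fun x => (fourier n (x : AddCircle T) : ℂ)) (haarAddCircle (T := T)) :=
  (map_continuous (fourier n)).integrable_of_hasCompactSupport
    (HasCompactSupport.of_compactSpace _)

/-- The integral of a monomial times a trigonometric polynomial. -/
lemma integral_fourier_mul_poly (M : ℕ) (c : ℤ → ℂ) (d : ℤ) :
    ∫ x, (fourier d (x : AddCircle T) : ℂ) * ∑ k ∈ Finset.Icc (-(M : ℤ)) M, c k • fourier k x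
        ∂(haarAddCircle (T := T))
      = if -d ∈ Finset.Icc (-(M : ℤ)) M then c (-d) else 0 := by
  have h1 : ∀ x : AddCircle T, (fourier d x : ℂ) * ∑ k ∈ Finset.Icc (-(M : ℤ)) M, c k • fourier k x
      = ∑ k ∈ Finset.Icc (-(M : ℤ)) M, c k * fourier (d + k) x := by
    intro x
    rw [Finset.mul_sum]
    refine Finset.sum_congr rfl fun k _ => ?_
    rw [fourier_add, smul_eq_mul]
    ring
  simp_rw [h1]
  rw [integral_finsetSum]
  · simp_rw [integral_const_mul, integral_fourier_eq]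
    split_ifs with h
    · rw [Finset.sum_eq_single (-d)]
      · simp
      · intro b _ hb
        have : d + b ≠ 0 := fun h' => hb (by omega)
        simp [this]
      · intro h'; exact absurd h h'
    · refine Finset.sum_eq_zero fun k hk => ?_
      have : d + k ≠ 0 := by
        intro h'
        have : k = -d := by omega
        rw [this] at hk
        exact h hk
      simp [this]
  · intro k _
    exact (integrable_fourier _).const_mul _

end fourier

/-- start of the block number `i`. -/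
def Bn (M : ℕ → ℕ) (i : ℕ) : ℕ := ∑ j ∈ Finset.range i, (2 * M j + 2)

lemma Bn_succ (M : ℕ → ℕ) (i : ℕ) : Bn M (i + 1) = Bn M i + 2 * M i + 2 := by
  simp [Bn, Finset.sum_range_succ]; ring

lemma le_Bn (M : ℕ → ℕ) (i : ℕ) : i ≤ Bn M i := by
  induction i with
  | zero => simp [Bn]
  | succ i ih => rw [Bn_succ]; omega

lemma Bn_mono (M : ℕ → ℕ) {i j : ℕ} (h : i ≤ j) : Bn M i ≤ Bn M j := by
  induction j, h using Nat.le_induction with
  | base => exact le_rfl
  | succ j _ ih => rw [Bn_succ]; omega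

/-- the central frequency of block number `i`. -/
def lamb (M : ℕ → ℕ) (i : ℕ) : ℤ := (Bn M i : ℤ) + M i + 1

/-- the blocks have disjoint frequency supports. -/
lemma block_disjoint (M : ℕ → ℕ) {i j : ℕ} {l l' : ℤ} (hl : l ∈ Finset.Icc (-(M i : ℤ)) (M i))
    (hl' : l' ∈ Finset.Icc (-(M j : ℤ)) (M j)) (h : lamb M i + l = lamb M j + l') : i = j := by
  rw [Finset.mem_Icc] at hl hl'
  by_contra hne
  rcases lt_or_gt_of_ne hne with hlt | hlt
  · have h1 : Bn M (i + 1) ≤ Bn M j := Bn_mono M hlt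
    rw [Bn_succ] at h1
    unfold lamb at h
    omega
  · have h1 : Bn M (j + 1) ≤ Bn M i := Bn_mono M hlt
    rw [Bn_succ] at h1
    unfold lamb at h
    omega

lemma sym_sum_eq_pos (u : ℤ → ℂ) (hu : ∀ k, k ≤ 0 → u k = 0) (N : ℕ) :
    ∑ k ∈ Finset.Icc (-(N : ℤ)) N, u k = ∑ k ∈ Finset.Icc (1 : ℤ) N, u k := by
  symm
  refine Finset.sum_subset ?_ ?_
  · intro k hk
    rw [Finset.mem_Icc] at hk ⊢
    omega
  · intro k hk hk'
    rw [Finset.mem_Icc] at hk hk'
    exact hu k (by omega)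

lemma sym_diff_sum (u : ℤ → ℂ) (hu : ∀ k, k ≤ 0 → u k = 0) (lam : ℤ) (n N1 N2 : ℕ)
    (h1 : (N1 : ℤ) = lam + n) (h2 : (N2 : ℤ) = lam - n - 1) :
    ∑ k ∈ Finset.Icc (-(N1 : ℤ)) N1, u k - ∑ k ∈ Finset.Icc (-(N2 : ℤ)) N2, u k
      = ∑ l ∈ Finset.Icc (-(n : ℤ)) n, u (lam + l) := by
  rw [sym_sum_eq_pos u hu, sym_sum_eq_pos u hu]
  have h3 : Finset.Icc (1 : ℤ) N1 = Finset.Icc (1 : ℤ) N2 ∪ Finset.Icc (lam - n) (lam + n) := by
    ext k
    simp only [Finset.mem_Icc, Finset.mem_union]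
    omega
  have h4 : Disjoint (Finset.Icc (1 : ℤ) N2) (Finset.Icc (lam - n) (lam + n)) := by
    rw [Finset.disjoint_left]
    intro k hk hk'
    rw [Finset.mem_Icc] at hk hk'
    omega
  rw [h3, Finset.sum_union h4, add_sub_cancel_left]
  refine Finset.sum_nbij' (fun k => k - lam) (fun l => lam + l) ?_ ?_ ?_ ?_ ?_
  · intro k hk
    rw [Finset.mem_Icc] at hk ⊢
    omega
  · intro k hk
    rw [Finset.mem_Icc] at hk ⊢
    omega
  · intro k _
    ring
  · intro k _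
    ring
  · intro k _
    congr 1
    ring

section hump

open AddCircle

variable {T : ℝ} [hT : Fact (0 < T)]

/-- the term number `i` of the series. -/
noncomputable def Fb (M : ℕ → ℕ) (g : ℕ → AddCircle T → ℝ) (a : ℕ → ℝ) (i : ℕ) (x : AddCircle T) :
    ℂ :=
  (a i : ℂ) * (fourier (lamb M i) x * (g i x : ℂ))

lemma Fb_norm (M : ℕ → ℕ) (g : ℕ → AddCircle T → ℝ) (a : ℕ → ℝ) (ha0 : ∀ i, 0 ≤ a i)
    (hg0 : ∀ i x, 0 ≤ g i x) (i : ℕ) (x : AddCircle T) : ‖Fb M g a i x‖ = a i * g i x := by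
  unfold Fb
  rw [norm_mul, norm_mul, Complex.norm_real, Complex.norm_real, Real.norm_of_nonneg (ha0 i),
    Real.norm_of_nonneg (hg0 i x)]
  have : ‖(fourier (lamb M i) x : ℂ)‖ = 1 := Circle.norm_coe _
  rw [this, one_mul]

lemma Fb_cont (M : ℕ → ℕ) (g : ℕ → AddCircle T → ℝ) (a : ℕ → ℝ) (hgc : ∀ i, Continuous (g i))
    (i : ℕ) : Continuous (Fb M g a i) := by
  unfold Fb
  have h1 := map_continuous (fourier (T := T) (lamb M i))
  have h2 := hgc i
  fun_prop

lemma Fb_integrable (M : ℕ → ℕ) (g : ℕ → AddCircle T → ℝ) (a : ℕ → ℝ)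
    (hgc : ∀ i, Continuous (g i)) (i : ℕ) : Integrable (Fb M g a i) (haarAddCircle (T := T)) :=
  (Fb_cont M g a hgc i).integrable_of_hasCompactSupport (HasCompactSupport.of_compactSpace _)

lemma integral_norm_Fb (M : ℕ → ℕ) (g : ℕ → AddCircle T → ℝ) (a : ℕ → ℝ) (ha0 : ∀ i, 0 ≤ a i)
    (hg0 : ∀ i x, 0 ≤ g i x) (hgint : ∀ i, ∫ x, g i x ∂(haarAddCircle (T := T)) = 1) (i : ℕ) :
    ∫ x, ‖Fb M g a i x‖ ∂(haarAddCircle (T := T)) = a i := by
  simp_rw [Fb_norm M g a ha0 hg0 i]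
  rw [integral_const_mul, hgint, mul_one]

lemma coef_series (M : ℕ → ℕ) (c : ℕ → ℤ → ℂ) (g : ℕ → AddCircle T → ℝ) (a : ℕ → ℝ)
    (hgc : ∀ i, Continuous (g i)) (hg0 : ∀ i x, 0 ≤ g i x)
    (hgexp : ∀ i x, (g i x : ℂ) = ∑ k ∈ Finset.Icc (-(M i : ℤ)) (M i), c i k • fourier k x)
    (hgint : ∀ i, ∫ x, g i x ∂(haarAddCircle (T := T)) = 1)
    (ha0 : ∀ i, 0 ≤ a i) (has : Summable a) (n : ℤ) :
    fourierCoeff (fun x => ∑' i, Fb M g a i x) n
      = ∑' i, (a i : ℂ) * (if n - lamb M i ∈ Finset.Icc (-(M i : ℤ)) (M i)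
          then c i (n - lamb M i) else 0) := by
  unfold fourierCoeff
  have h1 : ∀ t : AddCircle T, (fourier (-n) t : ℂ) • ∑' i, Fb M g a i t
      = ∑' i, (fourier (-n) t : ℂ) • Fb M g a i t := by
    intro t
    rw [tsum_const_smul'']
  simp_rw [h1]
  have hint : ∀ i, Integrable (fun t => (fourier (-n) t : ℂ) • Fb M g a i t)
      (haarAddCircle (T := T)) := fun i =>
    (Fb_integrable M g a hgc i).fourier_smul (-n)
  have hnorm : ∀ i, ∫ t, ‖(fourier (-n) t : ℂ) • Fb M g a i t‖ ∂(haarAddCircle (T := T)) = a i := by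
    intro i
    have : ∀ t : AddCircle T, ‖(fourier (-n) t : ℂ) • Fb M g a i t‖ = ‖Fb M g a i t‖ := by
      intro t
      rw [norm_smul]
      have : ‖(fourier (-n) t : ℂ)‖ = 1 := Circle.norm_coe _
      rw [this, one_mul]
    simp_rw [this]
    exact integral_norm_Fb M g a ha0 hg0 hgint i
  have hs : Summable fun i => ∫ t, ‖(fourier (-n) t : ℂ) • Fb M g a i t‖ ∂(haarAddCircle (T := T)) := by
    simp_rw [hnorm]
    exact has
  rw [← integral_tsum_of_summable_integral_norm hint hs]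
  refine tsum_congr fun i => ?_
  have h2 : ∀ t : AddCircle T, (fourier (-n) t : ℂ) • Fb M g a i t
      = (a i : ℂ) * ((fourier (lamb M i - n) t : ℂ) *
          ∑ k ∈ Finset.Icc (-(M i : ℤ)) (M i), c i k • fourier k t) := by
    intro t
    unfold Fb
    rw [hgexp i t, smul_eq_mul, sub_eq_add_neg, add_comm, fourier_add]
    ring
  simp_rw [h2]
  rw [integral_const_mul, integral_fourier_mul_poly]
  congr 1
  have h3 : -(lamb M i - n) = n - lamb M i := by ring
  rw [h3]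

lemma coef_nonpos (M : ℕ → ℕ) (c : ℕ → ℤ → ℂ) (g : ℕ → AddCircle T → ℝ) (a : ℕ → ℝ)
    (hgc : ∀ i, Continuous (g i)) (hg0 : ∀ i x, 0 ≤ g i x)
    (hgexp : ∀ i x, (g i x : ℂ) = ∑ k ∈ Finset.Icc (-(M i : ℤ)) (M i), c i k • fourier k x)
    (hgint : ∀ i, ∫ x, g i x ∂(haarAddCircle (T := T)) = 1)
    (ha0 : ∀ i, 0 ≤ a i) (has : Summable a) (n : ℤ) (hn : n ≤ 0) :
    fourierCoeff (fun x => ∑' i, Fb M g a i x) n = 0 := by
  rw [coef_series M c g a hgc hg0 hgexp hgint ha0 has]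
  have : ∀ i, (a i : ℂ) * (if n - lamb M i ∈ Finset.Icc (-(M i : ℤ)) (M i)
      then c i (n - lamb M i) else 0) = 0 := by
    intro i
    rw [if_neg, mul_zero]
    rw [Finset.mem_Icc]
    unfold lamb
    omega
  simp_rw [this, tsum_zero]

lemma coef_block (M : ℕ → ℕ) (c : ℕ → ℤ → ℂ) (g : ℕ → AddCircle T → ℝ) (a : ℕ → ℝ)
    (hgc : ∀ i, Continuous (g i)) (hg0 : ∀ i x, 0 ≤ g i x)
    (hgexp : ∀ i x, (g i x : ℂ) = ∑ k ∈ Finset.Icc (-(M i : ℤ)) (M i), c i k • fourier k x)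
    (hgint : ∀ i, ∫ x, g i x ∂(haarAddCircle (T := T)) = 1)
    (ha0 : ∀ i, 0 ≤ a i) (has : Summable a) (i : ℕ) (l : ℤ)
    (hl : l ∈ Finset.Icc (-(M i : ℤ)) (M i)) :
    fourierCoeff (fun x => ∑' i, Fb M g a i x) (lamb M i + l) = (a i : ℂ) * c i l := by
  rw [coef_series M c g a hgc hg0 hgexp hgint ha0 has, tsum_eq_single i]
  · have h1 : lamb M i + l - lamb M i = l := by ring
    rw [h1, if_pos hl]
  · intro j hj
    rw [if_neg, mul_zero]
    intro h
    apply hj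
    have h2 : lamb M i + l = lamb M j + (lamb M i + l - lamb M j) := by ring
    exact (block_disjoint M hl h h2).symm

/-- the difference of two symmetric Fourier sums catches a whole symmetric block. -/
lemma partial_diff (M : ℕ → ℕ) (c : ℕ → ℤ → ℂ) (g : ℕ → AddCircle T → ℝ) (a : ℕ → ℝ)
    (hgc : ∀ i, Continuous (g i)) (hg0 : ∀ i x, 0 ≤ g i x)
    (hgexp : ∀ i x, (g i x : ℂ) = ∑ k ∈ Finset.Icc (-(M i : ℤ)) (M i), c i k • fourier k x)
    (hgint : ∀ i, ∫ x, g i x ∂(haarAddCircle (T := T)) = 1)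
    (ha0 : ∀ i, 0 ≤ a i) (has : Summable a) (i n : ℕ) (hn : n ≤ M i) (x : AddCircle T) :
    ‖∑ k ∈ Finset.Icc (-((Bn M i + M i + 1 + n : ℕ) : ℤ)) ((Bn M i + M i + 1 + n : ℕ) : ℤ),
        fourierCoeff (fun x => ∑' i, Fb M g a i x) k • fourier k x
      - ∑ k ∈ Finset.Icc (-((Bn M i + (M i - n) : ℕ) : ℤ)) ((Bn M i + (M i - n) : ℕ) : ℤ),
        fourierCoeff (fun x => ∑' i, Fb M g a i x) k • fourier k x‖
      = a i * ‖∑ l ∈ Finset.Icc (-(n : ℤ)) n, c i l • fourier l x‖ := by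
  set u : ℤ → ℂ := fun k => fourierCoeff (fun x => ∑' i, Fb M g a i x) k • fourier k x with hu
  have hu0 : ∀ k, k ≤ 0 → u k = 0 := by
    intro k hk
    simp only [hu]
    rw [coef_nonpos M c g a hgc hg0 hgexp hgint ha0 has k hk, zero_smul]
  have h1 := sym_diff_sum u hu0 (lamb M i) n (Bn M i + M i + 1 + n) (Bn M i + (M i - n))
    (by unfold lamb; push_cast; ring) (by unfold lamb; omega)
  rw [h1]
  have h2 : ∑ l ∈ Finset.Icc (-(n : ℤ)) n, u (lamb M i + l)
      = (a i : ℂ) * (fourier (lamb M i) x * ∑ l ∈ Finset.Icc (-(n : ℤ)) n, c i l • fourier l x) := by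
    rw [Finset.mul_sum, Finset.mul_sum]
    refine Finset.sum_congr rfl fun l hl => ?_
    have hl' : l ∈ Finset.Icc (-(M i : ℤ)) (M i) := by
      rw [Finset.mem_Icc] at hl ⊢
      omega
    simp only [hu]
    rw [coef_block M c g a hgc hg0 hgexp hgint ha0 has i l hl', fourier_add]
    simp only [smul_eq_mul]
    ring
  rw [h2, norm_mul, norm_mul, Complex.norm_real, Real.norm_of_nonneg (ha0 i)]
  have : ‖(fourier (lamb M i) x : ℂ)‖ = 1 := Circle.norm_coe _
  rw [this, one_mul]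

lemma noncv_measure (M : ℕ → ℕ) (c : ℕ → ℤ → ℂ) (g : ℕ → AddCircle T → ℝ) (a : ℕ → ℝ)
    (hgc : ∀ i, Continuous (g i)) (hg0 : ∀ i x, 0 ≤ g i x)
    (hgexp : ∀ i x, (g i x : ℂ) = ∑ k ∈ Finset.Icc (-(M i : ℤ)) (M i), c i k • fourier k x)
    (hgint : ∀ i, ∫ x, g i x ∂(haarAddCircle (T := T)) = 1)
    (ha0 : ∀ i, 0 ≤ a i) (has : Summable a) (c0 : ℝ) (hc0 : 0 < c0) (E : ℕ → Set (AddCircle T))
    (hEm : ∀ i, MeasurableSet (E i)) (hE : ∀ i, ENNReal.ofReal c0 ≤ haarAddCircle (E i))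
    (hx : ∀ i, ∀ x ∈ E i, ∃ n : ℕ, n ≤ M i ∧
      2 ≤ a i * ‖∑ l ∈ Finset.Icc (-(n : ℤ)) n, c i l • fourier l x‖) :
    0 < haarAddCircle {x : AddCircle T | ¬ ∃ l : ℂ,
        Tendsto (fun N : ℕ => ∑ k ∈ Finset.Icc (-(N : ℤ)) N,
          fourierCoeff (fun x => ∑' i, Fb M g a i x) k • fourier k x) atTop (𝓝 l)} := by
  set A : ℕ → Set (AddCircle T) := fun n => ⋃ i, ⋃ (_ : n ≤ i), E i with hA
  have hAanti : Antitone A := by
    intro n n' hn x hx
    simp only [hA, Set.mem_iUnion] at hx ⊢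
    obtain ⟨i, hi, hxi⟩ := hx
    exact ⟨i, le_trans hn hi, hxi⟩
  have hAm : ∀ n, MeasurableSet (A n) := fun n =>
    MeasurableSet.iUnion fun i => MeasurableSet.iUnion fun _ => hEm i
  have hAmeas : ∀ n, ENNReal.ofReal c0 ≤ haarAddCircle (A n) := by
    intro n
    refine le_trans (hE n) (measure_mono ?_)
    intro x hx
    simp only [hA, Set.mem_iUnion]
    exact ⟨n, le_rfl, hx⟩
  have hInter : ENNReal.ofReal c0 ≤ haarAddCircle (⋂ n, A n) := by
    rw [hAanti.measure_iInter (fun n => (hAm n).nullMeasurableSet) ⟨0, measure_ne_top _ _⟩]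
    exact le_iInf hAmeas
  refine lt_of_lt_of_le (lt_of_lt_of_le (ENNReal.ofReal_pos.2 hc0) hInter) (measure_mono ?_)
  intro x hxA
  simp only [Set.mem_ofPred_eq]
  rintro ⟨l, hl⟩
  obtain ⟨N0, hN0⟩ := Metric.tendsto_atTop.1 hl (1 / 2) (by norm_num)
  have hxN0 : x ∈ A N0 := Set.mem_iInter.1 hxA N0
  simp only [hA, Set.mem_iUnion] at hxN0
  obtain ⟨i, hi, hxi⟩ := hxN0
  obtain ⟨n, hn, hnorm⟩ := hx i x hxi
  have hd := partial_diff M c g a hgc hg0 hgexp hgint ha0 has i n hn x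
  have hBi : i ≤ Bn M i := le_Bn M i
  have h1 := hN0 (Bn M i + M i + 1 + n) (by omega)
  have h2 := hN0 (Bn M i + (M i - n)) (by omega)
  rw [dist_eq_norm] at h1 h2
  rw [← hd] at hnorm
  have h3 := norm_sub_le_norm_sub_add_norm_sub
    (∑ k ∈ Finset.Icc (-((Bn M i + M i + 1 + n : ℕ) : ℤ)) ((Bn M i + M i + 1 + n : ℕ) : ℤ),
        fourierCoeff (fun x => ∑' i, Fb M g a i x) k • fourier k x) l
    (∑ k ∈ Finset.Icc (-((Bn M i + (M i - n) : ℕ) : ℤ)) ((Bn M i + (M i - n) : ℕ) : ℤ),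
        fourierCoeff (fun x => ∑' i, Fb M g a i x) k • fourier k x)
  rw [norm_sub_rev l] at h3
  linarith

lemma phi_integrable (M : ℕ → ℕ) (g : ℕ → AddCircle T → ℝ) (a : ℕ → ℝ)
    (hgc : ∀ i, Continuous (g i)) (hg0 : ∀ i x, 0 ≤ g i x)
    (hgint : ∀ i, ∫ x, g i x ∂(haarAddCircle (T := T)) = 1)
    (hgle : ∀ i x, g i x ≤ M i + 1)
    (ha0 : ∀ i, 0 ≤ a i) (has : Summable a)
    (φ : ℝ → ℝ) (hφ : MonotoneOn φ (Set.Ici 0)) (hφ0 : ∀ u, 0 ≤ u → 0 ≤ φ u)
    (ψ : ℕ → ℝ) (hψ1 : ∀ i, 1 ≤ ψ i)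
    (hsmall : ∀ i, (2 : ℝ) ^ (i + 1) * a i * ψ i ≤ (1 / 2) ^ i)
    (hφψ : ∀ i u, 1 ≤ u → u ≤ (M i : ℝ) + 1 → φ u ≤ u * ψ i) :
    Integrable (fun x => φ ‖∑' i, Fb M g a i x‖) (haarAddCircle (T := T)) := by
  classical
  set τ : ℕ → AddCircle T → ℝ := fun i x => (2 : ℝ) ^ (i + 1) * a i * ψ i * g i x with hτ
  have hκ0 : ∀ i, 0 ≤ (2 : ℝ) ^ (i + 1) * a i * ψ i := fun i => by
    have := ha0 i
    have := hψ1 i
    positivity
  have hτ0 : ∀ i x, 0 ≤ τ i x := fun i x => mul_nonneg (hκ0 i) (hg0 i x)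
  have hτc : ∀ i, Continuous (τ i) := fun i => continuous_const.mul (hgc i)
  have hτi : ∀ i, Integrable (τ i) (haarAddCircle (T := T)) := fun i =>
    (hτc i).integrable_of_hasCompactSupport (HasCompactSupport.of_compactSpace _)
  have hτnorm : ∀ i, ∫ x, ‖τ i x‖ ∂(haarAddCircle (T := T)) = (2 : ℝ) ^ (i + 1) * a i * ψ i := by
    intro i
    have : ∀ x, ‖τ i x‖ = (2 : ℝ) ^ (i + 1) * a i * ψ i * g i x := fun x =>
      Real.norm_of_nonneg (hτ0 i x)
    simp_rw [this]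
    rw [integral_const_mul, hgint, mul_one]
  have hτs : Summable fun i => ∫ x, ‖τ i x‖ ∂(haarAddCircle (T := T)) := by
    simp_rw [hτnorm]
    exact Summable.of_nonneg_of_le hκ0 hsmall (summable_geometric_two)
  have hΓ : Integrable (fun x => φ 1 + ∑' i, τ i x) (haarAddCircle (T := T)) :=
    (integrable_const _).add (integrable_tsum_of_integral hτi hτs)
  have hae := ae_summable_norm_of_integral hτi hτs
  have hFint : ∀ i, Integrable (Fb M g a i) (haarAddCircle (T := T)) := fun i =>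
    Fb_integrable M g a hgc i
  have hFs : Summable fun i => ∫ x, ‖Fb M g a i x‖ ∂(haarAddCircle (T := T)) := by
    simp_rw [integral_norm_Fb M g a ha0 hg0 hgint]
    exact has
  have hf := integrable_tsum_of_integral hFint hFs
  have hmeas : AEStronglyMeasurable (fun x => φ ‖∑' i, Fb M g a i x‖) (haarAddCircle (T := T)) := by
    have hmono : Monotone fun u : ℝ => φ (max u 0) := by
      intro u v huv
      exact hφ (Set.mem_Ici.2 (le_max_right _ _)) (Set.mem_Ici.2 (le_max_right _ _))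
        (max_le_max huv le_rfl)
    have h1 : AEMeasurable (fun x => φ (max ‖∑' i, Fb M g a i x‖ 0)) (haarAddCircle (T := T)) :=
      hmono.measurable.comp_aemeasurable hf.1.norm.aemeasurable
    have h2 : (fun x => φ ‖∑' i, Fb M g a i x‖) = fun x => φ (max ‖∑' i, Fb M g a i x‖ 0) := by
      funext x
      rw [max_eq_left (norm_nonneg _)]
    rw [h2]
    exact h1.aestronglyMeasurable
  refine hΓ.mono' hmeas ?_
  filter_upwards [hae] with x hx
  have hφ1 : 0 ≤ φ 1 := hφ0 1 zero_le_one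
  have hfn : 0 ≤ φ ‖∑' i, Fb M g a i x‖ := hφ0 _ (norm_nonneg _)
  rw [Real.norm_of_nonneg hfn]
  have hτsx : Summable fun i => τ i x := hx.of_norm
  have hκ1 : ∀ i, 1 ≤ (2 : ℝ) ^ (i + 1) * ψ i := by
    intro i
    have h1 : (1 : ℝ) ≤ 2 ^ (i + 1) := one_le_pow₀ (by norm_num)
    nlinarith [hψ1 i]
  have hvle : ∀ i, ‖Fb M g a i x‖ ≤ τ i x := by
    intro i
    rw [Fb_norm M g a ha0 hg0]
    have h1 : 0 ≤ a i * g i x := mul_nonneg (ha0 i) (hg0 i x)
    have h2 : τ i x = ((2 : ℝ) ^ (i + 1) * ψ i) * (a i * g i x) := by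
      simp only [hτ]
      ring
    rw [h2]
    nlinarith [hκ1 i]
  have hvs : Summable fun i => ‖Fb M g a i x‖ :=
    Summable.of_nonneg_of_le (fun i => norm_nonneg _) hvle hτsx
  set s : ℝ := ∑' i, ‖Fb M g a i x‖ with hs
  have hs0 : 0 ≤ s := tsum_nonneg fun i => norm_nonneg _
  have hfs : ‖∑' i, Fb M g a i x‖ ≤ s := norm_tsum_le_tsum_norm hvs
  have h1 : φ ‖∑' i, Fb M g a i x‖ ≤ φ s :=
    hφ (Set.mem_Ici.2 (norm_nonneg _)) (Set.mem_Ici.2 hs0) hfs
  have hτt : 0 ≤ ∑' i, τ i x := tsum_nonneg fun i => hτ0 i x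
  refine le_trans h1 ?_
  by_cases hs1 : s ≤ 1
  · have := hφ (Set.mem_Ici.2 hs0) (Set.mem_Ici.2 zero_le_one) hs1
    linarith
  · push Not at hs1
    have hex : ∃ i, s ≤ (2 : ℝ) ^ (i + 1) * ‖Fb M g a i x‖ := by
      by_contra hcon
      push Not at hcon
      have hlt : ∀ i, ‖Fb M g a i x‖ < s * (1 / 2 * (1 / 2) ^ i) := by
        intro i
        have h2 := hcon i
        have h3 : (0 : ℝ) < 2 ^ (i + 1) := by positivity
        have h4 : s * (1 / 2 * (1 / 2) ^ i) = s / 2 ^ (i + 1) := by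
          rw [one_div_pow, pow_succ]
          field_simp
        rw [h4, lt_div_iff₀ h3, mul_comm]
        exact h2
      have hgeo : HasSum (fun i : ℕ => s * (1 / 2 * (1 / 2 : ℝ) ^ i)) s := by
        have h5 := (hasSum_geometric_two.mul_left (1 / 2 : ℝ)).mul_left s
        have h6 : s * (1 / 2 * 2) = s := by ring
        rwa [h6] at h5
      have := Summable.tsum_lt_tsum (fun i => (hlt i).le) (hlt 0) hvs hgeo.summable
      rw [hgeo.tsum_eq] at this
      exact lt_irrefl _ this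
    obtain ⟨i, hi⟩ := hex
    set u : ℝ := (2 : ℝ) ^ (i + 1) * ‖Fb M g a i x‖ with hu
    have hu1 : 1 ≤ u := le_trans hs1.le hi
    have hfac : (2 : ℝ) ^ (i + 1) * a i ≤ 1 := by
      have h2 := hsmall i
      have h3 : ((1 : ℝ) / 2) ^ i ≤ 1 := pow_le_one₀ (by norm_num) (by norm_num)
      have h4 : 0 ≤ (2 : ℝ) ^ (i + 1) * a i := by
        have := ha0 i
        positivity
      nlinarith [hψ1 i]
    have huval : u = (2 : ℝ) ^ (i + 1) * a i * g i x := by
      simp only [hu]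
      rw [Fb_norm M g a ha0 hg0]
      ring
    have huM : u ≤ (M i : ℝ) + 1 := by
      rw [huval]
      have h2 := hgle i x
      have h3 := hg0 i x
      have h4 : 0 ≤ (2 : ℝ) ^ (i + 1) * a i := by
        have := ha0 i
        positivity
      nlinarith
    have h5 := hφψ i u hu1 huM
    have h6 : φ s ≤ φ u := hφ (Set.mem_Ici.2 hs0) (Set.mem_Ici.2 (by linarith)) hi
    have h7 : u * ψ i = τ i x := by
      rw [huval]
      simp only [hτ]
      ring
    have h8 : τ i x ≤ ∑' i, τ i x := hτsx.le_tsum i fun j _ => hτ0 j x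
    linarith

end hump

/-- choice of the parameters of the block number `i`. -/
lemma choose_params (φ : ℝ → ℝ) (hφ : MonotoneOn φ (Set.Ici 0)) (hφ0 : ∀ u, 0 ≤ u → 0 ≤ φ u)
    (hlim : Tendsto (fun u : ℝ => φ u / (u * Real.sqrt (Real.log u))) atTop (𝓝 0))
    (C : ℝ) (hC : 0 < C) (m0 i : ℕ) :
    ∃ (m : ℕ) (ψ : ℝ), m0 ≤ m ∧ 0 < m ∧ 1 ≤ ψ ∧ (2 : ℝ) ^ (i + 1) * (40 / (m : ℝ)) * ψ ≤ (1 / 2) ^ i ∧
      ∀ U u : ℝ, 1 ≤ u → u ≤ U → Real.log U ≤ C * (m : ℝ) ^ 2 → φ u ≤ u * ψ := by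
  set D : ℝ := (2 : ℝ) ^ (i + 1) * 40 with hD
  have hD0 : 0 < D := by positivity
  set sC : ℝ := Real.sqrt C with hsC
  have hsC0 : 0 ≤ sC := Real.sqrt_nonneg _
  set q : ℝ := (1 / 2 : ℝ) ^ (i + 1) with hq
  have hq0 : 0 < q := by positivity
  set ε : ℝ := q / (D * (sC + 1)) with hε
  have hε0 : 0 < ε := by positivity
  obtain ⟨u1, hu1⟩ := (eventually_atTop.1 (hlim.eventually (gt_mem_nhds hε0)))
  set u0 : ℝ := max u1 3 with hu0
  have hu03 : 3 ≤ u0 := le_max_right _ _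
  have hu0pos : 0 ≤ φ u0 := hφ0 _ (by linarith)
  obtain ⟨m1, hm1⟩ := exists_nat_ge (D * (1 + φ u0) / q)
  set m : ℕ := max (max m0 m1) 1 with hm
  have hmm0 : m0 ≤ m := le_trans (le_max_left _ _) (le_max_left _ _)
  have hmm1 : m1 ≤ m := le_trans (le_max_right _ _) (le_max_left _ _)
  have hmpos : 0 < m := lt_of_lt_of_le Nat.one_pos (le_max_right _ _)
  have hmR : (0 : ℝ) < m := by exact_mod_cast hmpos
  have hmge : D * (1 + φ u0) / q ≤ (m : ℝ) :=
    le_trans hm1 (by exact_mod_cast hmm1)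
  refine ⟨m, 1 + φ u0 + ε * sC * m, hmm0, hmpos, ?_, ?_, ?_⟩
  · have : 0 ≤ ε * sC * m := by positivity
    linarith
  · have h1 : (2 : ℝ) ^ (i + 1) * (40 / (m : ℝ)) = D / m := by
      rw [hD]; ring
    rw [h1]
    have h2 : D / m * (1 + φ u0 + ε * sC * m) = D * (1 + φ u0) / m + D * ε * sC := by
      field_simp
    rw [h2]
    have h3 : D * (1 + φ u0) / m ≤ q := by
      rw [div_le_iff₀ hmR]
      rw [div_le_iff₀ hq0] at hmge
      linarith
    have h4 : D * ε * sC ≤ q := by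
      have h5 : D * ε * sC = q * (sC / (sC + 1)) := by
        rw [hε]
        field_simp
      rw [h5]
      have h6 : sC / (sC + 1) ≤ 1 := by
        rw [div_le_one (by positivity)]
        linarith
      nlinarith
    have h7 : (1 / 2 : ℝ) ^ i = q + q := by
      rw [hq, pow_succ]
      ring
    rw [h7]
    linarith
  · intro U u hu hUu hlog
    have hU1 : 1 ≤ U := le_trans hu hUu
    have hterm : 0 ≤ ε * sC * m := by positivity
    by_cases huu0 : u ≤ u0
    · have h1 : φ u ≤ φ u0 := hφ (Set.mem_Ici.2 (by linarith)) (Set.mem_Ici.2 (by linarith)) huu0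
      have h2 : φ u0 ≤ u * φ u0 := by nlinarith
      have h3 : u * φ u0 ≤ u * (1 + φ u0 + ε * sC * m) := by
        apply mul_le_mul_of_nonneg_left _ (by linarith)
        linarith
      linarith
    · push Not at huu0
      have hu1' : u1 ≤ u := le_trans (le_max_left _ _) huu0.le
      have hu3 : 3 ≤ u := by linarith
      have hlogu : 1 ≤ Real.log u := by
        rw [Real.le_log_iff_exp_le (by linarith)]
        have := Real.exp_one_lt_d9
        linarith
      have hsq : 0 < Real.sqrt (Real.log u) := Real.sqrt_pos.2 (by linarith)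
      have hupos : 0 < u := by linarith
      have h1 := hu1 u hu1'
      rw [div_lt_iff₀ (by positivity)] at h1
      have hlogU : Real.log u ≤ Real.log U := Real.log_le_log hupos hUu
      have hsq2 : Real.sqrt (Real.log u) ≤ sC * m := by
        have h3 : Real.log u ≤ (sC * m) ^ 2 := by
          have h4 : (sC * m) ^ 2 = C * (m : ℝ) ^ 2 := by
            rw [mul_pow, hsC, Real.sq_sqrt hC.le]
          rw [h4]
          linarith
        have h5 : 0 ≤ sC * m := by positivity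
        calc Real.sqrt (Real.log u) ≤ Real.sqrt ((sC * m) ^ 2) := Real.sqrt_le_sqrt h3
          _ = sC * m := Real.sqrt_sq h5
      have h2 : φ u ≤ ε * (u * (sC * m)) := by
        refine le_trans h1.le ?_
        apply mul_le_mul_of_nonneg_left _ hε0.le
        apply mul_le_mul_of_nonneg_left hsq2 hupos.le
      have h3 : ε * (u * (sC * m)) = u * (ε * sC * m) := by ring
      rw [h3] at h2
      refine le_trans h2 ?_
      apply mul_le_mul_of_nonneg_left _ hupos.le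
      linarith

theorem final_of_block {T : ℝ} [Fact (0 < T)] (hB : BlockFamily T)
    (φ : ℝ → ℝ) (hφ : MonotoneOn φ (Set.Ici 0)) (hφ0 : ∀ u, 0 ≤ u → 0 ≤ φ u)
    (hlim : Tendsto (fun u : ℝ => φ u / (u * Real.sqrt (Real.log u))) atTop (𝓝 0)) :
    ∃ f : AddCircle T → ℂ, Integrable f AddCircle.haarAddCircle ∧
      Integrable (fun x => φ ‖f x‖) AddCircle.haarAddCircle ∧
      0 < AddCircle.haarAddCircle {x : AddCircle T | ¬ ∃ l : ℂ,
        Tendsto (fun N : ℕ => ∑ k ∈ Finset.Icc (-(N : ℤ)) N, fourierCoeff f k • fourier k x)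
          atTop (𝓝 l)} := by
  obtain ⟨C, c0, m0, hC, hc0, hblock⟩ := hB
  choose m ψ hm0 hmpos hψ1 hsmall hU using choose_params φ hφ hφ0 hlim C hC m0
  have hb := fun i => hblock (m i) (hm0 i)
  choose M c g E hgc hg0 hgexp hgint hgle hlog hEm hEc hEx using hb
  set a : ℕ → ℝ := fun i => 40 / (m i : ℝ) with ha
  have hmR : ∀ i, (0 : ℝ) < m i := fun i => by exact_mod_cast hmpos i
  have ha0 : ∀ i, 0 ≤ a i := fun i => by
    have := hmR i
    simp only [ha]
    positivity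
  have hale : ∀ i, a i ≤ (1 / 2) ^ i := by
    intro i
    have h1 := hsmall i
    have h2 : (1 : ℝ) ≤ 2 ^ (i + 1) := one_le_pow₀ (by norm_num)
    have h3 := ha0 i
    have h4 := hψ1 i
    have h5 : a i ≤ (2 : ℝ) ^ (i + 1) * a i * ψ i := by
      have h6 : 1 ≤ (2 : ℝ) ^ (i + 1) * ψ i := by nlinarith
      nlinarith
    exact le_trans h5 h1
  have has : Summable a := Summable.of_nonneg_of_le ha0 hale summable_geometric_two
  refine ⟨fun x => ∑' i, Fb M g a i x, ?_, ?_, ?_⟩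
  · refine integrable_tsum_of_integral (fun i => Fb_integrable M g a hgc i) ?_
    simp_rw [integral_norm_Fb M g a ha0 hg0 hgint]
    exact has
  · refine phi_integrable M g a hgc hg0 hgint hgle ha0 has φ hφ hφ0 ψ hψ1 hsmall ?_
    intro i u hu1 huM
    exact hU i _ u hu1 huM (hlog i)
  · refine noncv_measure M c g a hgc hg0 hgexp hgint ha0 has c0 hc0 E hEm hEc ?_
    intro i x hx
    obtain ⟨n, hn, hnorm⟩ := hEx i x hx
    refine ⟨n, hn, ?_⟩
    have h1 := hmR i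
    have h2 : a i * ((m i : ℝ) / 20) = 2 := by
      simp only [ha]
      field_simp
      norm_num
    calc (2 : ℝ) = a i * ((m i : ℝ) / 20) := h2.symm
      _ ≤ _ := mul_le_mul_of_nonneg_left hnorm (ha0 i)

end Vale.Agent.Lib.P091
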