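import Vale.Agent.Lib.P091.Defs

open Finset Real

namespace Vale.Agent.Lib.P091

/-- closed form of the Dirichlet kernel. -/
theorem dirichlet_eq (N : ℕ) (s : ℝ) (hs : sin (π * s) ≠ 0) :
    dirichlet N s = sin (2 * π * N * s) * cotp s + cos (2 * π * N * s) := by
  unfold dirichlet cotp
  induction N with
  | zero => simp
  | succ n ih =>
    rw [Finset.sum_range_succ, mul_add, ← add_assoc, ih]
    push_cast
    have e1 : 2 * π * ((n : ℝ) + 1) * s = (2 * π * n * s + π * s) + π * s := by ring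
    have e2 : 2 * π * (n : ℝ) * s = (2 * π * n * s + π * s) - π * s := by ring
    set a := 2 * π * (n : ℝ) * s + π * s with ha
    set b := π * s with hb
    rw [e1, e2, sin_add, cos_add, sin_sub, cos_sub]
    field_simp
    ring_nf

theorem one_sub_abs_le_cos (u : ℝ) : 1 - |u| ≤ cos u := by
  have h1 := Real.one_sub_sq_div_two_le_cos (x := u)
  have h2 := neg_one_le_cos u
  by_cases hu : |u| ≤ 2
  · have h3 : u ^ 2 = |u| ^ 2 := (sq_abs u).symm
    have h4 := abs_nonneg u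
    nlinarith
  · have hu' := not_le.mp hu
    linarith

private theorem sin_pos_of (t : ℝ) (h0 : 0 < t) (h1 : t < 1 / 2) : 0 < sin (π * t) := by
  apply sin_pos_of_pos_of_lt_pi
  · positivity
  · have := pi_pos; nlinarith

private theorem cos_pos_of (t : ℝ) (h0 : 0 < t) (h1 : t < 1 / 2) : 0 < cos (π * t) := by
  apply cos_pos_of_mem_Ioo
  constructor
  · have := pi_pos
    have : 0 < π * t := by positivity
    linarith
  · have := pi_pos; nlinarith

theorem cotp_pos (t : ℝ) (h0 : 0 < t) (h1 : t < 1 / 2) : 0 < cotp t :=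
  div_pos (cos_pos_of t h0 h1) (sin_pos_of t h0 h1)

theorem cotp_neg (t : ℝ) (h0 : t < 0) (h1 : -(1 / 2) < t) : cotp t < 0 := by
  have h := cotp_pos (-t) (by linarith) (by linarith)
  unfold cotp at h ⊢
  rw [mul_neg, cos_neg, sin_neg] at h
  rw [div_neg] at h
  linarith

theorem sin_pi_ne_zero (t : ℝ) (h0 : t ≠ 0) (h1 : |t| < 1 / 2) : sin (π * t) ≠ 0 := by
  rcases lt_or_gt_of_ne h0 with h | h
  · have := sin_pos_of (-t) (by linarith) (by rw [abs_of_neg h] at h1; linarith)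
    rw [mul_neg, sin_neg] at this
    linarith
  · have := sin_pos_of t h (by rwa [abs_of_pos h] at h1)
    exact this.ne'

private theorem cotp_even (t : ℝ) : cotp (-t) = - cotp t := by
  unfold cotp
  rw [mul_neg, cos_neg, sin_neg, div_neg]

private theorem cotp_abs_eq (t : ℝ) : |cotp t| = |cotp (|t|)| := by
  rcases abs_cases t with ⟨h, _⟩ | ⟨h, _⟩
  · rw [h]
  · rw [h, cotp_even, abs_neg]

theorem cotp_abs_le (t : ℝ) (h0 : t ≠ 0) (h1 : |t| < 1 / 2) : |cotp t| ≤ 1 / (π * |t|) := by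
  rw [cotp_abs_eq]
  have ht : 0 < |t| := abs_pos.mpr h0
  rw [abs_of_pos (cotp_pos _ ht h1)]
  unfold cotp
  have hs := sin_pos_of _ ht h1
  have hpi := pi_pos
  have hu : 0 < π * |t| := by positivity
  have hc := cos_pos_of _ ht h1
  rw [div_le_div_iff₀ hs hu]
  -- `u * cos u ≤ sin u` on `[0, π/2)`
  have htan : π * |t| ≤ tan (π * |t|) := by
    apply (Real.lt_tan hu (by nlinarith)).le
  rw [tan_eq_sin_div_cos, le_div_iff₀ hc] at htan
  linarith

theorem cotp_abs_ge (t : ℝ) (h0 : t ≠ 0) (h1 : |t| < 1 / 2) : 1 / (π * |t|) - π / 4 ≤ |cotp t| := by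
  rw [cotp_abs_eq]
  have ht : 0 < |t| := abs_pos.mpr h0
  rw [abs_of_pos (cotp_pos _ ht h1)]
  unfold cotp
  have hs := sin_pos_of _ ht h1
  have hpi := pi_pos
  have hu : 0 < π * |t| := by positivity
  have hc := cos_pos_of _ ht h1
  set u := π * |t| with huu
  have hu2 : u ≤ π / 2 := by nlinarith
  have hsin : sin u ≤ u := sin_le hu.le
  have hcos : 1 - u ^ 2 / 2 ≤ cos u := Real.one_sub_sq_div_two_le_cos
  have h3 : cos u / u ≤ cos u / sin u := div_le_div_of_nonneg_left hc.le hs hsin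
  have h4 : (1 - u ^ 2 / 2) / u ≤ cos u / u := div_le_div_of_nonneg_right hcos hu.le
  have h5 : (1 - u ^ 2 / 2) / u = 1 / u - u / 2 := by field_simp
  have h6 : u / 2 ≤ π / 4 := by linarith
  linarith

private theorem sin_sub_nat_mul_pi' (a : ℝ) (G : ℕ) : sin (a - G * π) = (-1 : ℝ) ^ G * sin a := by
  induction G with
  | zero => simp
  | succ k ih =>
    have : a - ((k + 1 : ℕ) : ℝ) * π = (a - k * π) - π := by
      push_cast; ring
    rw [this, sin_sub_pi, ih, pow_succ]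
    ring

/-- evaluation of the sine at the phase.  -/
theorem sin_phase (N : ℝ) (t τ ε : ℝ) (n : ℤ) (G : ℕ)
    (hN : N * t = n + 3 / 4 + τ - (G : ℝ) / 2 - ε) :
    sin (2 * π * N * t) = (-1 : ℝ) ^ (G + 1) * cos (2 * π * (τ - ε)) := by
  have e1 : 2 * π * N * t = (2 * π * (τ - ε) + 3 * π / 2 - G * π) + n * (2 * π) := by
    have : 2 * π * N * t = 2 * π * (N * t) := by ring
    rw [this, hN]; ring
  rw [e1, sin_add_int_mul_two_pi]
  have e2 := sin_sub_nat_mul_pi' (2 * π * (τ - ε) + 3 * π / 2) G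
  rw [e2]
  have e3 : sin (2 * π * (τ - ε) + 3 * π / 2) = - cos (2 * π * (τ - ε)) := by
    have : 2 * π * (τ - ε) + 3 * π / 2 = (2 * π * (τ - ε) + π / 2) + π := by ring
    rw [this, sin_add_pi, sin_add_pi_div_two]
  rw [e3, pow_succ]
  ring

/-- the discrete intermediate value step choosing the shift `q`. -/
theorem exists_q (a ξ : ℝ) (h1 : 1 / 128 ≤ ξ) (h2 : ξ ≤ 2 / 128) :
    ∃ q : ℕ, q ≤ 128 ∧ ∃ n : ℤ, |a + q * ξ - n - 3 / 4| ≤ 1 / 64 := by
  -- take the integer `n` with `n + 3/4 ≥ a` minimal and the first `q` reaching it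
  set n : ℤ := ⌈a - 3 / 4⌉ with hn
  have hn1 : a - 3 / 4 ≤ n := Int.le_ceil _
  have hn2 : (n : ℝ) < a - 3 / 4 + 1 := Int.ceil_lt_add_one _
  -- the target difference
  set d : ℝ := (n : ℝ) + 3 / 4 - a with hd
  have hd0 : 0 ≤ d := by rw [hd]; linarith
  have hd1 : d < 1 := by rw [hd]; linarith
  have hξ : 0 < ξ := by linarith
  -- q = floor (d / ξ)
  set q : ℕ := ⌊d / ξ⌋₊ with hq
  have hq1 : (q : ℝ) ≤ d / ξ := Nat.floor_le (div_nonneg hd0 hξ.le)
  have hq2 : d / ξ < q + 1 := Nat.lt_floor_add_one _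
  have hq3 : (q : ℝ) * ξ ≤ d := by rwa [le_div_iff₀ hξ] at hq1
  have hq4 : d < (q + 1) * ξ := by rwa [div_lt_iff₀ hξ] at hq2
  refine ⟨q, ?_, n, ?_⟩
  · have : (q : ℝ) ≤ 128 := by
      have h5 : d / ξ ≤ 128 := by
        rw [div_le_iff₀ hξ]; linarith
      linarith
    exact_mod_cast this
  · have : a + q * ξ - n - 3 / 4 = q * ξ - d := by rw [hd]; ring
    rw [this, abs_le]
    constructor <;> nlinarith

end Vale.Agent.Lib.P091
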