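import Vale.Agent.Lib.P091.Defs

open Finset Real

namespace Vale.Agent.Lib.P091

theorem loss_nonneg (m W h l j jx : ℕ) : 0 ≤ loss m W h l j jx := by
  unfold loss
  split_ifs <;> positivity

private theorem same_term_le (m W h l j jx : ℕ) :
    2 * π * (if dig m l j = 0 ∧ win m W l j < win m W l jx then
      1 / (2 * (2 : ℝ) ^ (h * (win m W l jx - win m W l j))) else 0) ≤ loss m W h l j jx := by
  by_cases hc : dig m l j = 0 ∧ win m W l j < win m W l jx
  · rw [if_pos hc]
    have hn : node m l j ≠ node m l jx := by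
      intro e
      have : win m W l j = win m W l jx := by simp [win, e]
      omega
    unfold loss
    rw [if_pos ⟨hc.1, hn, hc.2.le⟩, if_neg hc.2.ne]
    apply le_of_eq
    have hp : (2 : ℝ) ^ (h * (win m W l jx - win m W l j)) ≠ 0 := by positivity
    field_simp
  · rw [if_neg hc]
    simpa using loss_nonneg m W h l j jx

/-- the losses dominate the same-level error. -/
theorem loss_sum_ge (m W h j jx : ℕ) :
    2 * π * same m W h j jx ≤ ∑ l ∈ Act m jx, loss m W h l j jx := by
  unfold same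
  rw [Finset.mul_sum]
  exact Finset.sum_le_sum fun l _ => same_term_le m W h l j jx

/-- the losses dominate the collision indicator and the same-level error. -/
theorem loss_sum_ge_bad (m W h j jx : ℕ) (hB : Bad m W j jx) :
    2 + 2 * π * same m W h j jx ≤ ∑ l ∈ Act m jx, loss m W h l j jx := by
  obtain ⟨l0, hl0, hd, hw, hn⟩ := hB
  have h0 : loss m W h l0 j jx = 2 := by
    unfold loss
    rw [if_pos ⟨hd, hn, hw.le⟩, if_pos hw]
  unfold same
  rw [Finset.mul_sum, ← Finset.add_sum_erase _ _ hl0, ← Finset.add_sum_erase _ (loss m W h · j jx) hl0]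
  have h1 : (if dig m l0 j = 0 ∧ win m W l0 j < win m W l0 jx then
      1 / (2 * (2 : ℝ) ^ (h * (win m W l0 jx - win m W l0 j))) else 0) = 0 := by
    rw [if_neg]
    rintro ⟨_, h2⟩
    omega
  rw [h1, h0]
  have h3 := Finset.sum_le_sum (s := (Act m jx).erase l0) fun l _ => same_term_le m W h l j jx
  linarith

/-! Dyadic harmonic sums. -/

private theorem harm_upper (l : ℕ) : ∑ q ∈ range (2 ^ l), 1 / ((q : ℝ) + 1) ≤ 1 + l := by
  induction l with
  | zero => simp
  | succ l ih =>
    have h2 : (2 : ℕ) ^ (l + 1) = 2 ^ l + 2 ^ l := by ring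
    rw [h2, Finset.sum_range_add]
    have hb : ∑ q ∈ range (2 ^ l), 1 / (((2 ^ l + q : ℕ) : ℝ) + 1) ≤ 1 := by
      calc ∑ q ∈ range (2 ^ l), 1 / (((2 ^ l + q : ℕ) : ℝ) + 1)
          ≤ ∑ q ∈ range (2 ^ l), (1 / ((2 : ℝ) ^ l)) := by
            refine Finset.sum_le_sum fun q _ => ?_
            apply one_div_le_one_div_of_le (by positivity)
            push_cast
            have : (0 : ℝ) ≤ q := Nat.cast_nonneg q
            linarith
        _ = 1 := by
            rw [Finset.sum_const, card_range, nsmul_eq_mul]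
            push_cast
            field_simp
    push_cast at ih hb ⊢
    linarith

private theorem harm_lower (a : ℕ) : 1 + (a : ℝ) / 2 ≤ ∑ q ∈ range (2 ^ a), 1 / ((q : ℝ) + 1) := by
  induction a with
  | zero => simp
  | succ a ih =>
    have h2 : (2 : ℕ) ^ (a + 1) = 2 ^ a + 2 ^ a := by ring
    rw [h2, Finset.sum_range_add]
    have hb : (1 : ℝ) / 2 ≤ ∑ q ∈ range (2 ^ a), 1 / (((2 ^ a + q : ℕ) : ℝ) + 1) := by
      calc (1 : ℝ) / 2 = ∑ q ∈ range (2 ^ a), (1 / (2 * (2 : ℝ) ^ a)) := by
            rw [Finset.sum_const, card_range, nsmul_eq_mul]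
            push_cast
            field_simp
        _ ≤ _ := by
            refine Finset.sum_le_sum fun q hq => ?_
            apply one_div_le_one_div_of_le (by positivity)
            push_cast
            have : (q : ℝ) + 1 ≤ (2 : ℝ) ^ a := by
              have := mem_range.mp hq
              exact_mod_cast this
            linarith
    push_cast at ih hb ⊢
    linarith

private theorem harm_mono {N A : ℕ} (h : N ≤ A) :
    ∑ q ∈ range N, 1 / ((q : ℝ) + 1) ≤ ∑ q ∈ range A, 1 / ((q : ℝ) + 1) := by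
  apply Finset.sum_le_sum_of_subset_of_nonneg (range_subset_range.mpr h)
  intros
  positivity

/-- harmonic lower bound on the total mass. -/
theorem harmonic_lower (m jx : ℕ) (hm : 1 ≤ m) (hjx : jx < 2 ^ m) :
    ((m : ℝ) - 1) / 2 ≤ ∑ j ∈ (range (2 ^ m)).erase jx, 1 / (|(j : ℝ) - jx| + 1) := by
  obtain ⟨a, rfl⟩ : ∃ a, m = a + 1 := ⟨m - 1, by omega⟩
  set D := 2 ^ a with hD
  have h2 : 2 ^ (a + 1) = D + D := by rw [hD]; ring
  have hDpos : 0 < D := by positivity
  have hlow : ((a : ℝ)) / 2 ≤ ∑ q ∈ range D, 1 / ((q : ℝ) + 2) := by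
    have h1 := harm_lower a
    have h3 : ∑ q ∈ range (D + 1), 1 / ((q : ℝ) + 1)
        = ∑ q ∈ range D, 1 / ((q : ℝ) + 2) + 1 := by
      rw [Finset.sum_range_succ']
      congr 1
      · refine Finset.sum_congr rfl fun q _ => ?_
        push_cast
        ring_nf
      · simp
    have h4 := harm_mono (Nat.le_succ D)
    simp only [Nat.succ_eq_add_one] at h4
    linarith
  have key : ∀ i : ℕ → ℕ, (∀ q < D, i q ∈ (range (2 ^ (a + 1))).erase jx) →
      (∀ q < D, |((i q : ℕ) : ℝ) - jx| = (q : ℝ) + 1) → Set.InjOn i (range D : Set ℕ) →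
      ((a + 1 : ℕ) - 1 : ℝ) / 2 ≤ ∑ j ∈ (range (2 ^ (a + 1))).erase jx, 1 / (|(j : ℝ) - jx| + 1) := by
    intro i hi hd hinj
    have hsub : (range D).image i ⊆ (range (2 ^ (a + 1))).erase jx := by
      intro x hx
      obtain ⟨q, hq, rfl⟩ := mem_image.mp hx
      exact hi q (mem_range.mp hq)
    calc ((a + 1 : ℕ) - 1 : ℝ) / 2 = (a : ℝ) / 2 := by push_cast; ring
      _ ≤ ∑ q ∈ range D, 1 / ((q : ℝ) + 2) := hlow
      _ = ∑ j ∈ (range D).image i, 1 / (|(j : ℝ) - jx| + 1) := by
          rw [Finset.sum_image hinj]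
          refine Finset.sum_congr rfl fun q hq => ?_
          rw [hd q (mem_range.mp hq)]
          ring_nf
      _ ≤ _ := by
          apply Finset.sum_le_sum_of_subset_of_nonneg hsub
          intros
          positivity
  by_cases hc : jx < D
  · apply key (fun q => jx + 1 + q)
    · intro q hq
      simp only [mem_erase, mem_range]
      omega
    · intro q _
      push_cast
      have : (0 : ℝ) ≤ q := Nat.cast_nonneg q
      rw [abs_of_nonneg (by linarith)]
      ring
    · intro x _ y _ hxy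
      dsimp only at hxy
      omega
  · apply key (fun q => jx - 1 - q)
    · intro q hq
      simp only [mem_erase, mem_range]
      omega
    · intro q hq
      have e : jx - 1 - q + 1 + q = jx := by omega
      have e' : ((jx - 1 - q : ℕ) : ℝ) + 1 + q = jx := by exact_mod_cast e
      have h0 : (0 : ℝ) ≤ q := Nat.cast_nonneg q
      have : ((jx - 1 - q : ℕ) : ℝ) - jx = -((q : ℝ) + 1) := by linarith
      show |((jx - 1 - q : ℕ) : ℝ) - jx| = (q : ℝ) + 1
      rw [this, abs_neg, abs_of_nonneg (by linarith)]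
    · intro x hx y hy hxy
      simp only [coe_range, Set.mem_Iio] at hx hy
      dsimp only at hxy
      omega

/-! The level estimate. -/

/-- weight of the window gap. -/
noncomputable def massVw (h g : ℕ) : ℝ := if g = 0 then 2 else π * ((2 : ℝ) ^ (h * g))⁻¹

/-- comparison weight for nonzero gaps. -/
noncomputable def massEw (g : ℕ) : ℝ := if g = 0 then 0 else π * (1 / 512 : ℝ) ^ g

/-- bound for the contribution of one node. -/
noncomputable def massTau (m nx n : ℕ) : ℝ :=
  if n < nx then 1 / (2 * ((nx : ℝ) - n)) else if n = nx + 1 then 1 + (m : ℝ)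
  else 1 / (2 * ((n : ℝ) - nx - 1))

/-- contribution of one node. -/
noncomputable def massPhi (m W h nx n : ℕ) : ℝ :=
  if n ≠ nx ∧ n % W ≤ nx % W then massVw h (nx % W - n % W) * massTau m nx n else 0

private theorem vw_nonneg (h g : ℕ) : 0 ≤ massVw h g := by
  unfold massVw
  split_ifs <;> positivity

private theorem ew_nonneg (g : ℕ) : 0 ≤ massEw g := by
  unfold massEw
  split_ifs <;> positivity

private theorem tau_nonneg (m nx n : ℕ) (hn : n ≠ nx) : 0 ≤ massTau m nx n := by
  unfold massTau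
  split_ifs with h1 h2
  · have : (n : ℝ) < nx := by exact_mod_cast h1
    apply one_div_nonneg.mpr
    linarith
  · positivity
  · have : (nx : ℝ) + 2 ≤ n := by
      have : nx + 2 ≤ n := by omega
      exact_mod_cast this
    apply one_div_nonneg.mpr
    linarith

private theorem phi_nonneg (m W h nx n : ℕ) : 0 ≤ massPhi m W h nx n := by
  unfold massPhi
  split_ifs with hc
  · exact mul_nonneg (vw_nonneg _ _) (tau_nonneg _ _ _ hc.1)
  · exact le_rfl

private theorem sum_ew (N : ℕ) : ∑ g ∈ range (N + 1), massEw g ≤ 1 / 160 := by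
  have key : ∑ g ∈ range (N + 1), massEw g + π / 511 * (1 / 512 : ℝ) ^ N = π / 511 := by
    induction N with
    | zero => simp [massEw]
    | succ N ih =>
      rw [Finset.sum_range_succ]
      have e1 : massEw (N + 1) = π * (1 / 512 : ℝ) ^ (N + 1) := by simp [massEw]
      rw [e1, pow_succ]
      linear_combination ih
  have h1 : 0 ≤ π / 511 * (1 / 512 : ℝ) ^ N := by positivity
  have h2 := Real.pi_lt_d2
  have h3 : π / 511 ≤ 1 / 160 := by
    rw [div_le_div_iff₀ (by norm_num) (by norm_num)]
    linarith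
  linarith

private theorem pow_bound (h g : ℕ) (hh : 10 ≤ h) :
    ((2 : ℝ) ^ (h * g))⁻¹ ≤ (1 / 512 : ℝ) ^ g * (1 / 2 : ℝ) ^ g := by
  rw [← mul_pow]
  have e : (1 / 512 * (1 / 2) : ℝ) = ((2 : ℝ) ^ 10)⁻¹ := by norm_num
  rw [e, inv_pow, ← pow_mul]
  apply inv_anti₀ (by positivity)
  exact pow_le_pow_right₀ (by norm_num) (Nat.mul_le_mul_right g hh)

private theorem vw_mul_le (h g : ℕ) (hh : 10 ≤ h) (hg : g ≠ 0) (t : ℝ) (ht : 0 ≤ t)
    (ht2 : t * (1 / 2 : ℝ) ^ g ≤ 1) : massVw h g * t ≤ massEw g := by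
  unfold massVw massEw
  rw [if_neg hg, if_neg hg]
  have hpi := Real.pi_pos
  calc π * ((2 : ℝ) ^ (h * g))⁻¹ * t ≤ π * ((1 / 512 : ℝ) ^ g * (1 / 2 : ℝ) ^ g) * t := by
        gcongr
        exact pow_bound h g hh
    _ = π * (1 / 512 : ℝ) ^ g * (t * (1 / 2 : ℝ) ^ g) := by ring
    _ ≤ π * (1 / 512 : ℝ) ^ g * 1 := by gcongr
    _ = π * (1 / 512 : ℝ) ^ g := by ring

private theorem half_pow_le_one (g : ℕ) : (1 / 2 : ℝ) ^ g ≤ 1 :=
  pow_le_one₀ (by norm_num) (by norm_num)

private theorem sum_vw (h N : ℕ) (hh : 10 ≤ h) : ∑ g ∈ range (N + 1), massVw h g ≤ 2 + 1 / 160 := by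
  have h1 := sum_ew N
  rw [Finset.sum_range_succ'] at h1 ⊢
  have h0 : massVw h 0 = 2 := by simp [massVw]
  have h0' : massEw 0 = 0 := by simp [massEw]
  rw [h0]
  rw [h0'] at h1
  have h2 : ∑ g ∈ range N, massVw h (g + 1) ≤ ∑ g ∈ range N, massEw (g + 1) := by
    refine Finset.sum_le_sum fun g _ => ?_
    have := vw_mul_le h (g + 1) hh (by omega) 1 (by norm_num)
      (by rw [one_mul]; exact half_pow_le_one _)
    simpa using this
  linarith

private theorem sum_ite_reflect (W wx : ℕ) (hwx : wx < W) (f : ℕ → ℝ) :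
    ∑ w ∈ range W, (if w ≤ wx then f (wx - w) else 0) = ∑ g ∈ range (wx + 1), f g := by
  rw [← Finset.sum_filter]
  have e : (range W).filter (fun w => w ≤ wx) = range (wx + 1) := by
    ext x
    simp only [mem_filter, mem_range]
    omega
  rw [e, ← Finset.sum_range_reflect f (wx + 1)]
  refine Finset.sum_congr rfl fun w _ => ?_
  congr 1

private theorem psi_le {m W h nx p wx px : ℕ} (hwx : wx < W) (hnx : nx = px * W + wx)
    (B : ℕ → ℝ) (h0 : ∀ g, 0 ≤ B g)
    (hB : ∀ w, w ≤ wx → p * W + w ≠ nx → massVw h (wx - w) * massTau m nx (p * W + w) ≤ B (wx - w)) :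
    ∑ w ∈ range W, massPhi m W h nx (p * W + w) ≤ ∑ g ∈ range (wx + 1), B g := by
  rw [← sum_ite_reflect W wx hwx B]
  refine Finset.sum_le_sum fun w hw => ?_
  have hw' := mem_range.mp hw
  have e1 : (p * W + w) % W = w := by
    rw [Nat.add_comm, Nat.add_mul_mod_self_right, Nat.mod_eq_of_lt hw']
  have e2 : nx % W = wx := by
    rw [hnx, Nat.add_comm, Nat.add_mul_mod_self_right, Nat.mod_eq_of_lt hwx]
  unfold massPhi
  rw [e1, e2]
  by_cases h1 : w ≤ wx
  · rw [if_pos h1]
    split_ifs with hc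
    · exact hB w h1 hc.1
    · exact h0 _
  · rw [if_neg h1, if_neg (fun hc => h1 hc.2)]

private theorem psi_lt {m W h nx p wx px : ℕ} (hh : 10 ≤ h) (hWpos : 0 < W) (hwx : wx < W)
    (hnx : nx = px * W + wx) (hp : p < px) :
    ∑ w ∈ range W, massPhi m W h nx (p * W + w) ≤
      (2 + 1 / 160) / (2 * (W : ℝ)) * (1 / ((px - p : ℕ) : ℝ)) := by
  obtain ⟨k, rfl⟩ : ∃ k, px = p + (k + 1) := ⟨px - p - 1, by omega⟩
  have ek : ((p + (k + 1) - p : ℕ) : ℝ) = (k : ℝ) + 1 := by
    have : p + (k + 1) - p = k + 1 := by omega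
    rw [this]
    push_cast
    ring
  rw [ek]
  have hW' : (0 : ℝ) < W := by exact_mod_cast hWpos
  have hk : (0 : ℝ) < (k : ℝ) + 1 := by positivity
  set c : ℝ := 1 / (2 * (W : ℝ)) * (1 / ((k : ℝ) + 1)) with hc
  have hc0 : 0 ≤ c := by positivity
  have h1 := psi_le (m := m) (h := h) (p := p) hwx hnx (fun g => massVw h g * c)
    (fun g => mul_nonneg (vw_nonneg _ _) hc0) (by
      intro w hw _
      apply mul_le_mul_of_nonneg_left _ (vw_nonneg _ _)
      have hlt : p * W + w < nx := by
        rw [hnx]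
        have : (p + (k + 1)) * W = p * W + k * W + W := by ring
        omega
      unfold massTau
      rw [if_pos hlt, hc]
      have eq1 : (nx : ℝ) = (p + (k + 1) : ℕ) * W + wx := by exact_mod_cast hnx
      have eq2 : ((p * W + w : ℕ) : ℝ) = p * W + w := by push_cast; ring
      have hw1 : (w : ℝ) ≤ wx := by exact_mod_cast hw
      have e3 : 1 / (2 * (W : ℝ)) * (1 / ((k : ℝ) + 1)) = 1 / (2 * (((k : ℝ) + 1) * W)) := by
        field_simp
      rw [e3]
      apply one_div_le_one_div_of_le (by positivity)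
      rw [eq1, eq2]
      push_cast
      nlinarith)
  refine h1.trans ?_
  rw [← Finset.sum_mul]
  have h2 := sum_vw h wx hh
  calc (∑ g ∈ range (wx + 1), massVw h g) * c ≤ (2 + 1 / 160) * c := by gcongr
    _ = _ := by rw [hc]; ring

private theorem psi_gt {m W h nx p wx px : ℕ} (hh : 10 ≤ h) (hWpos : 0 < W) (hwx : wx < W)
    (hnx : nx = px * W + wx) (hp : px + 2 ≤ p) :
    ∑ w ∈ range W, massPhi m W h nx (p * W + w) ≤
      (2 + 1 / 160) / (2 * (W : ℝ)) * (1 / ((p - px - 1 : ℕ) : ℝ)) := by
  obtain ⟨k, rfl⟩ : ∃ k, p = px + 2 + k := ⟨p - px - 2, by omega⟩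
  have ek : ((px + 2 + k - px - 1 : ℕ) : ℝ) = (k : ℝ) + 1 := by
    have : px + 2 + k - px - 1 = k + 1 := by omega
    rw [this]
    push_cast
    ring
  rw [ek]
  have hW' : (0 : ℝ) < W := by exact_mod_cast hWpos
  have hk : (0 : ℝ) < (k : ℝ) + 1 := by positivity
  set c : ℝ := 1 / (2 * (W : ℝ)) * (1 / ((k : ℝ) + 1)) with hc
  have hc0 : 0 ≤ c := by positivity
  have h1 := psi_le (m := m) (h := h) (p := px + 2 + k) hwx hnx (fun g => massVw h g * c)
    (fun g => mul_nonneg (vw_nonneg _ _) hc0) (by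
      intro w hw _
      apply mul_le_mul_of_nonneg_left _ (vw_nonneg _ _)
      have e0 : (px + 2 + k) * W = px * W + W + W + k * W := by ring
      have hn1 : ¬ (px + 2 + k) * W + w < nx := by
        rw [hnx, e0]
        omega
      have hn2 : ¬ (px + 2 + k) * W + w = nx + 1 := by
        rw [hnx, e0]
        omega
      unfold massTau
      rw [if_neg hn1, if_neg hn2, hc]
      have eq1 : (nx : ℝ) = px * W + wx := by exact_mod_cast hnx
      have eq2 : (((px + 2 + k) * W + w : ℕ) : ℝ) = (px + 2 + k) * W + w := by push_cast; ring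
      have hw1 : (wx : ℝ) + 1 ≤ W := by exact_mod_cast hwx
      have hw0 : (0 : ℝ) ≤ w := Nat.cast_nonneg w
      have e3 : 1 / (2 * (W : ℝ)) * (1 / ((k : ℝ) + 1)) = 1 / (2 * (((k : ℝ) + 1) * W)) := by
        field_simp
      rw [e3]
      apply one_div_le_one_div_of_le (by positivity)
      rw [eq1, eq2]
      nlinarith)
  refine h1.trans ?_
  rw [← Finset.sum_mul]
  have h2 := sum_vw h wx hh
  calc (∑ g ∈ range (wx + 1), massVw h g) * c ≤ (2 + 1 / 160) * c := by gcongr
    _ = _ := by rw [hc]; ring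

private theorem psi_eq {m W h nx wx px : ℕ} (hh : 10 ≤ h) (hwx : wx < W)
    (hnx : nx = px * W + wx) :
    ∑ w ∈ range W, massPhi m W h nx (px * W + w) ≤ 1 / 160 := by
  have h1 := psi_le (m := m) (h := h) (p := px) hwx hnx massEw ew_nonneg (by
      intro w hw hne
      have hlt : w < wx := by
        rcases lt_or_eq_of_le hw with h | h
        · exact h
        · exact absurd (by rw [hnx, h]) hne
      have hg : wx - w ≠ 0 := by omega
      have hlt2 : px * W + w < nx := by rw [hnx]; omega
      have ht : massTau m nx (px * W + w) = 1 / (2 * ((wx : ℝ) - w)) := by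
        unfold massTau
        rw [if_pos hlt2]
        have eq1 : (nx : ℝ) = px * W + wx := by exact_mod_cast hnx
        rw [eq1]
        push_cast
        congr 2
        ring
      have hgt : (1 : ℝ) ≤ (wx : ℝ) - w := by
        have : w + 1 ≤ wx := hlt
        have : (w : ℝ) + 1 ≤ wx := by exact_mod_cast this
        linarith
      have ht1 : 1 / (2 * ((wx : ℝ) - w)) ≤ 1 / 2 := by
        apply one_div_le_one_div_of_le (by norm_num)
        linarith
      have ht0 : 0 ≤ 1 / (2 * ((wx : ℝ) - w)) := by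
        apply one_div_nonneg.mpr
        linarith
      rw [ht]
      apply vw_mul_le h _ hh hg _ ht0
      have := half_pow_le_one (wx - w)
      have h5 : (0 : ℝ) ≤ (1 / 2 : ℝ) ^ (wx - w) := by positivity
      nlinarith)
  exact h1.trans (sum_ew wx)

private theorem psi_succ {m W h nx wx px : ℕ} (hh : 10 ≤ h) (hW : 256 * (m + 1) ≤ W) (hwx : wx < W)
    (hnx : nx = px * W + wx) :
    ∑ w ∈ range W, massPhi m W h nx ((px + 1) * W + w) ≤ 1 / ((W : ℝ) - 1) + 1 / 160 := by
  have hW2 : (256 : ℝ) ≤ W := by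
    have : 256 ≤ W := by omega
    exact_mod_cast this
  have h1 := psi_le (m := m) (h := h) (p := px + 1) hwx hnx
    (fun g => if g = 0 then 1 / ((W : ℝ) - 1) else massEw g)
    (by
      intro g
      try dsimp only
      split_ifs
      · apply one_div_nonneg.mpr
        linarith
      · exact ew_nonneg g) (by
      intro w hw _
      have e0 : (px + 1) * W = px * W + W := by ring
      have eq1 : (nx : ℝ) = px * W + wx := by exact_mod_cast hnx
      have eq2 : (((px + 1) * W + w : ℕ) : ℝ) = (px + 1) * W + w := by push_cast; ring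
      have hn1 : ¬ (px + 1) * W + w < nx := by
        rw [hnx, e0]
        omega
      have hw1 : (w : ℝ) ≤ wx := by exact_mod_cast hw
      have hw2 : (wx : ℝ) + 1 ≤ W := by exact_mod_cast hwx
      by_cases hg : wx - w = 0
      · have hww : w = wx := by omega
        subst hww
        have hn2 : ¬ (px + 1) * W + w = nx + 1 := by
          rw [hnx, e0]
          omega
        have hv : massVw h (w - w) = 2 := by simp [massVw]
        try dsimp only
        rw [if_pos hg, hv]
        unfold massTau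
        rw [if_neg hn1, if_neg hn2, eq1, eq2]
        apply le_of_eq
        have e5 : ((px : ℝ) + 1) * W + w - (px * W + w) - 1 = W - 1 := by ring
        rw [e5]
        have : (W : ℝ) - 1 ≠ 0 := by linarith
        field_simp
      · try dsimp only
        rw [if_neg hg]
        by_cases hn2 : (px + 1) * W + w = nx + 1
        · have hgW : wx - w = W - 1 := by
            rw [hnx, e0] at hn2
            omega
          unfold massTau
          rw [if_neg hn1, if_pos hn2]
          apply vw_mul_le h _ hh hg _ (by positivity)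
          have h2g : (m : ℝ) + 1 ≤ (2 : ℝ) ^ (wx - w) := by
            have h3 : wx - w < 2 ^ (wx - w) := Nat.lt_two_pow_self
            have h4 : m + 1 ≤ 2 ^ (wx - w) := by omega
            exact_mod_cast h4
          rw [one_div, inv_pow, ← div_eq_mul_inv, div_le_one (by positivity)]
          linarith
        · unfold massTau
          rw [if_neg hn1, if_neg hn2]
          have hn3 : ((px + 1 : ℕ) : ℝ) = (px : ℝ) + 1 := by push_cast; ring
          have hd : (1 : ℝ) ≤ (((px + 1) * W + w : ℕ) : ℝ) - nx - 1 := by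
            have h6 : nx + 2 ≤ (px + 1) * W + w := by omega
            have h7 : ((nx : ℝ) + 2) ≤ (((px + 1) * W + w : ℕ) : ℝ) := by exact_mod_cast h6
            linarith
          have ht0 : 0 ≤ 1 / (2 * ((((px + 1) * W + w : ℕ) : ℝ) - nx - 1)) := by
            apply one_div_nonneg.mpr
            linarith
          have ht1 : 1 / (2 * ((((px + 1) * W + w : ℕ) : ℝ) - nx - 1)) ≤ 1 / 2 := by
            apply one_div_le_one_div_of_le (by norm_num)
            linarith
          apply vw_mul_le h _ hh hg _ ht0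
          have := half_pow_le_one (wx - w)
          have h5 : (0 : ℝ) ≤ (1 / 2 : ℝ) ^ (wx - w) := by positivity
          nlinarith)
  refine h1.trans ?_
  rw [Finset.sum_range_succ']
  have h2 := sum_ew wx
  rw [Finset.sum_range_succ'] at h2
  have h0' : massEw 0 = 0 := by simp [massEw]
  rw [h0'] at h2
  simp only [Nat.add_eq_zero_iff, one_ne_zero, and_false, if_false, if_true]
  linarith

private theorem sum_filter_shift (D A : ℕ) (f : ℕ → ℝ) :
    ∑ p ∈ range A, (if D ≤ p then f (p - D) else 0) = ∑ q ∈ range (A - D), f q := by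
  induction A with
  | zero => simp
  | succ A ih =>
    rw [Finset.sum_range_succ, ih]
    by_cases h : D ≤ A
    · rw [if_pos h]
      have : A + 1 - D = (A - D) + 1 := by omega
      rw [this, Finset.sum_range_succ]
    · rw [if_neg h]
      have h1 : A + 1 - D = 0 := by omega
      have h2 : A - D = 0 := by omega
      rw [h1, h2]
      simp

/-- summing over the nodes. -/
theorem node_sum (m W h l nx : ℕ) (hnx : nx < 2 ^ l) (hl : l < m) (hW : 256 * (m + 1) ≤ W)
    (hh : 10 ≤ h) : ∑ n ∈ range (2 ^ l), massPhi m W h nx n ≤ 1 / 32 := by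
  have hWpos : 0 < W := by omega
  have hW2 : (256 : ℝ) * ((m : ℝ) + 1) ≤ W := by exact_mod_cast hW
  have hm0 : (0 : ℝ) ≤ m := Nat.cast_nonneg m
  have hWr : (256 : ℝ) ≤ W := by linarith
  set px := nx / W with hpx
  set wx := nx % W with hwxd
  have hwx : wx < W := Nat.mod_lt _ hWpos
  have hnx' : nx = px * W + wx := (Nat.div_add_mod' nx W).symm
  have hpxle : px ≤ 2 ^ l := (Nat.div_le_self nx W).trans hnx.le
  set A := 2 ^ l with hA
  have hexp : ∀ (F : ℕ → ℝ) (a : ℕ), ∑ n ∈ range (a * W), F n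
      = ∑ p ∈ range a, ∑ w ∈ range W, F (p * W + w) := by
    intro F a
    induction a with
    | zero => simp
    | succ a ih =>
      rw [Nat.add_mul, Nat.one_mul, Finset.sum_range_add, ih, Finset.sum_range_succ]
  have hstep1 : ∑ n ∈ range A, massPhi m W h nx n ≤ ∑ n ∈ range (A * W), massPhi m W h nx n := by
    apply Finset.sum_le_sum_of_subset_of_nonneg
    · apply range_subset_range.mpr
      exact Nat.le_mul_of_pos_right A hWpos
    · intro _ _ _
      exact phi_nonneg _ _ _ _ _
  rw [hexp] at hstep1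
  set C : ℝ := (2 + 1 / 160) / (2 * (W : ℝ)) with hC
  have hC0 : 0 ≤ C := by positivity
  set b1 : ℕ → ℝ := fun p => if p < px then C * (1 / ((px - p : ℕ) : ℝ)) else 0 with hb1
  set b2 : ℕ → ℝ := fun p => if p = px then 1 / 160 else 0 with hb2
  set b3 : ℕ → ℝ := fun p => if p = px + 1 then 1 / ((W : ℝ) - 1) + 1 / 160 else 0 with hb3
  set b4 : ℕ → ℝ := fun p => if px + 2 ≤ p then C * (1 / ((p - px - 1 : ℕ) : ℝ)) else 0 with hb4
  have hb3v : 0 ≤ 1 / ((W : ℝ) - 1) + 1 / 160 := by
    have : 0 ≤ 1 / ((W : ℝ) - 1) := by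
      apply one_div_nonneg.mpr
      linarith
    linarith
  have hb1n : ∀ p, 0 ≤ b1 p := by
    intro p
    simp only [hb1]
    split_ifs <;> positivity
  have hb2n : ∀ p, 0 ≤ b2 p := by
    intro p
    simp only [hb2]
    split_ifs <;> positivity
  have hb3n : ∀ p, 0 ≤ b3 p := by
    intro p
    simp only [hb3]
    split_ifs
    · exact hb3v
    · exact le_rfl
  have hb4n : ∀ p, 0 ≤ b4 p := by
    intro p
    simp only [hb4]
    split_ifs <;> positivity
  have hpoint : ∀ p, ∑ w ∈ range W, massPhi m W h nx (p * W + w) ≤ b1 p + b2 p + b3 p + b4 p := by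
    intro p
    have h1 := hb1n p
    have h2 := hb2n p
    have h3 := hb3n p
    have h4 := hb4n p
    rcases lt_trichotomy p px with hp | hp | hp
    · have e : b1 p = C * (1 / ((px - p : ℕ) : ℝ)) := by simp only [hb1]; rw [if_pos hp]
      have : ∑ w ∈ range W, massPhi m W h nx (p * W + w) ≤ C * (1 / ((px - p : ℕ) : ℝ)) :=
        psi_lt (m := m) hh hWpos hwx hnx' hp
      rw [e]
      rw [e] at h1
      linarith
    · subst hp
      have e : b2 px = 1 / 160 := by simp [hb2]
      have := psi_eq (m := m) (h := h) hh hwx hnx'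
      rw [e]
      linarith
    · by_cases hp1 : p = px + 1
      · subst hp1
        have e : b3 (px + 1) = 1 / ((W : ℝ) - 1) + 1 / 160 := by simp [hb3]
        have := psi_succ (m := m) (h := h) hh hW hwx hnx'
        rw [e]
        linarith
      · have hp2 : px + 2 ≤ p := by omega
        have e : b4 p = C * (1 / ((p - px - 1 : ℕ) : ℝ)) := by simp only [hb4]; rw [if_pos hp2]
        have : ∑ w ∈ range W, massPhi m W h nx (p * W + w) ≤ C * (1 / ((p - px - 1 : ℕ) : ℝ)) :=
          psi_gt (m := m) hh hWpos hwx hnx' hp2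
        rw [e]
        linarith
  have hH := harm_upper l
  have hS1 : ∑ p ∈ range A, b1 p ≤ C * (1 + (l : ℝ)) := by
    simp only [hb1]
    rw [← Finset.sum_filter]
    have h1 : ∑ p ∈ (range A).filter (fun p => p < px), C * (1 / ((px - p : ℕ) : ℝ))
        ≤ ∑ p ∈ range px, C * (1 / ((px - p : ℕ) : ℝ)) := by
      apply Finset.sum_le_sum_of_subset_of_nonneg
      · intro x hx
        simp only [mem_filter, mem_range] at hx ⊢
        exact hx.2
      · intros
        positivity
    refine h1.trans ?_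
    rw [← Finset.mul_sum]
    apply mul_le_mul_of_nonneg_left _ hC0
    have h2 : ∑ p ∈ range px, 1 / ((px - p : ℕ) : ℝ) = ∑ q ∈ range px, 1 / ((q : ℝ) + 1) := by
      rw [← Finset.sum_range_reflect (fun q : ℕ => 1 / ((q : ℝ) + 1)) px]
      refine Finset.sum_congr rfl fun p hp => ?_
      have hp' := mem_range.mp hp
      have : px - p = (px - 1 - p) + 1 := by omega
      rw [this]
      push_cast
      rfl
    rw [h2]
    exact (harm_mono hpxle).trans hH
  have hS2 : ∑ p ∈ range A, b2 p ≤ 1 / 160 := by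
    simp only [hb2]
    rw [Finset.sum_ite_eq']
    split_ifs <;> norm_num
  have hS3 : ∑ p ∈ range A, b3 p ≤ 1 / ((W : ℝ) - 1) + 1 / 160 := by
    simp only [hb3]
    rw [Finset.sum_ite_eq']
    split_ifs
    · exact le_rfl
    · exact hb3v
  have hS4 : ∑ p ∈ range A, b4 p ≤ C * (1 + (l : ℝ)) := by
    have e : ∀ p, b4 p = if px + 2 ≤ p then
        (fun q : ℕ => C * (1 / ((q : ℝ) + 1))) (p - (px + 2)) else 0 := by
      intro p
      simp only [hb4]
      split_ifs with hp
      · have : p - px - 1 = (p - (px + 2)) + 1 := by omega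
        rw [this]
        push_cast
        rfl
      · rfl
    rw [Finset.sum_congr rfl (fun p _ => e p),
      sum_filter_shift (px + 2) A (fun q : ℕ => C * (1 / ((q : ℝ) + 1))), ← Finset.mul_sum]
    apply mul_le_mul_of_nonneg_left _ hC0
    exact (harm_mono (Nat.sub_le _ _)).trans hH
  have hsum : ∑ p ∈ range A, ∑ w ∈ range W, massPhi m W h nx (p * W + w)
      ≤ ∑ p ∈ range A, (b1 p + b2 p + b3 p + b4 p) :=
    Finset.sum_le_sum fun p _ => hpoint p
  rw [Finset.sum_add_distrib, Finset.sum_add_distrib, Finset.sum_add_distrib] at hsum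
  have hl1 : (1 : ℝ) + l ≤ m := by
    have : l + 1 ≤ m := hl
    have : (l : ℝ) + 1 ≤ m := by exact_mod_cast this
    linarith
  have hCb : C * (1 + (l : ℝ)) ≤ (2 + 1 / 160) / 512 := by
    rw [hC, div_mul_eq_mul_div, div_le_div_iff₀ (by positivity) (by norm_num)]
    nlinarith
  have hW1 : 1 / ((W : ℝ) - 1) ≤ 1 / 255 := by
    apply one_div_le_one_div_of_le (by norm_num)
    linarith
  have : (2 + 1 / 160 : ℝ) / 512 + (2 + 1 / 160) / 512 + 1 / 160 + 1 / 255 + 1 / 160 ≤ 1 / 32 := by
    norm_num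
  linarith

private theorem T_le (m a nx rx n : ℕ) (ham : a ≤ m) (hrx1 : 2 ^ a ≤ rx) (hrx2 : rx < 2 * 2 ^ a)
    (hn : n ≠ nx) :
    ∑ r ∈ range (2 ^ a), 1 / |((n * (2 * 2 ^ a) + r : ℕ) : ℝ) - ((nx * (2 * 2 ^ a) + rx : ℕ) : ℝ)|
      ≤ massTau m nx n := by
  set K : ℕ := 2 ^ a with hK
  have hKpos : 0 < K := by positivity
  have hKr : (0 : ℝ) < K := by exact_mod_cast hKpos
  have h1r : (K : ℝ) ≤ rx := by exact_mod_cast hrx1
  have h2r : (rx : ℝ) + 1 ≤ 2 * K := by
    have : rx + 1 ≤ 2 * K := hrx2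
    exact_mod_cast this
  have hcast : ∀ r : ℕ, ((n * (2 * K) + r : ℕ) : ℝ) - ((nx * (2 * K) + rx : ℕ) : ℝ)
      = ((n : ℝ) - nx) * (2 * K) + r - rx := by
    intro r
    push_cast
    ring
  have hconst : ∀ d : ℝ, 0 < d →
      (∀ r ∈ range K, d ≤ |((n * (2 * K) + r : ℕ) : ℝ) - ((nx * (2 * K) + rx : ℕ) : ℝ)|) →
      ∑ r ∈ range K, 1 / |((n * (2 * K) + r : ℕ) : ℝ) - ((nx * (2 * K) + rx : ℕ) : ℝ)|
        ≤ (K : ℝ) * (1 / d) := by
    intro d hd hb
    calc _ ≤ ∑ r ∈ range K, (1 / d) :=
          Finset.sum_le_sum fun r hr => one_div_le_one_div_of_le hd (hb r hr)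
      _ = _ := by rw [Finset.sum_const, card_range, nsmul_eq_mul]
  unfold massTau
  by_cases h1 : n < nx
  · rw [if_pos h1]
    have hd1 : (1 : ℝ) ≤ (nx : ℝ) - n := by
      have : n + 1 ≤ nx := h1
      have : (n : ℝ) + 1 ≤ nx := by exact_mod_cast this
      linarith
    have hd : 0 < ((nx : ℝ) - n) * (2 * K) := by positivity
    have := hconst _ hd (by
      intro r hr
      rw [hcast]
      have hr1 : (r : ℝ) + 1 ≤ K := by
        have : r + 1 ≤ K := mem_range.mp hr
        exact_mod_cast this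
      refine le_trans ?_ (neg_le_abs _)
      nlinarith)
    refine this.trans (le_of_eq ?_)
    have : (nx : ℝ) - n ≠ 0 := by linarith
    field_simp
  · rw [if_neg h1]
    by_cases h2 : n = nx + 1
    · rw [if_pos h2]
      have hup : ∑ r ∈ range K, 1 / ((r : ℝ) + 1) ≤ 1 + a := harm_upper a
      have ham' : (a : ℝ) ≤ m := by exact_mod_cast ham
      refine le_trans (Finset.sum_le_sum fun r _ => ?_) (hup.trans (by linarith))
      apply one_div_le_one_div_of_le (by positivity)
      rw [hcast, h2]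
      refine le_trans ?_ (le_abs_self _)
      push_cast
      nlinarith
    · rw [if_neg h2]
      have h3 : nx + 2 ≤ n := by omega
      have h3r : (nx : ℝ) + 2 ≤ n := by exact_mod_cast h3
      have hd : 0 < ((n : ℝ) - nx - 1) * (2 * K) := by
        apply mul_pos
        · linarith
        · positivity
      have := hconst _ hd (by
        intro r hr
        rw [hcast]
        have hr0 : (0 : ℝ) ≤ r := Nat.cast_nonneg r
        refine le_trans ?_ (le_abs_self _)
        nlinarith)
      refine this.trans (le_of_eq ?_)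
      have : (n : ℝ) - nx - 1 ≠ 0 := by linarith
      field_simp

/-- the key mass estimate at one level. -/
theorem level_loss (m W h l jx : ℕ) (hl : l < m) (hjx : jx < 2 ^ m) (hd : dig m l jx = 1)
    (hW : 256 * (m + 1) ≤ W) (hh : 10 ≤ h) :
    ∑ j ∈ (range (2 ^ m)).erase jx, (1 / |(j : ℝ) - jx|) * loss m W h l j jx ≤ 1 / 32 := by
  obtain ⟨a, ha⟩ : ∃ a, m = l + (a + 1) := ⟨m - l - 1, by omega⟩
  have ham : a ≤ m := by omega
  set K : ℕ := 2 ^ a with hK
  have hKpos : 0 < K := by positivity
  have hml : m - l = a + 1 := by omega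
  have hml1 : m - l - 1 = a := by omega
  have hR : 2 ^ (m - l) = 2 * K := by rw [hml, pow_succ, hK]; ring
  have hnode : ∀ j, node m l j = j / (2 * K) := by
    intro j
    unfold node
    rw [hR]
  have hdig : ∀ j, dig m l j = j / K % 2 := by
    intro j
    unfold dig
    rw [hml1]
  have hpow : 2 ^ m = 2 ^ l * (2 * K) := by rw [ha, pow_add, hK, pow_succ]; ring
  set nx := jx / (2 * K) with hnxd
  set rx := jx % (2 * K) with hrxd
  have hjxe : jx = nx * (2 * K) + rx := (Nat.div_add_mod' jx (2 * K)).symm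
  have hrx2 : rx < 2 * K := Nat.mod_lt _ (by omega)
  have hnx : nx < 2 ^ l := by
    apply Nat.div_lt_of_lt_mul
    rw [hpow] at hjx
    linarith [hjx, Nat.mul_comm (2 * K) (2 ^ l)]
  have hdiv : ∀ n r, (n * (2 * K) + r) / K = 2 * n + r / K := by
    intro n r
    have : n * (2 * K) + r = r + K * (2 * n) := by ring
    rw [this, Nat.add_mul_div_left _ _ hKpos]
    ring
  have hrx1 : K ≤ rx := by
    by_contra hc
    push Not at hc
    have h0 := hdig jx
    rw [hd, hjxe, hdiv, Nat.div_eq_of_lt hc] at h0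
    omega
  have hnode2 : ∀ n r, r < 2 * K → node m l (n * (2 * K) + r) = n := by
    intro n r hr
    rw [hnode, Nat.add_comm, Nat.add_mul_div_right _ _ (by omega), Nat.div_eq_of_lt hr, Nat.zero_add]
  have hwin : ∀ n r, r < 2 * K → win m W l (n * (2 * K) + r) = n % W := by
    intro n r hr
    unfold win
    rw [hnode2 n r hr]
  have hnodex : node m l jx = nx := hnode jx
  have hwinx : win m W l jx = nx % W := by
    unfold win
    rw [hnodex]
  -- the digit zero part
  have hl0 : ∀ n r, r < K → loss m W h l (n * (2 * K) + r) jx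
      = if n ≠ nx ∧ n % W ≤ nx % W then massVw h (nx % W - n % W) else 0 := by
    intro n r hr
    have hr2 : r < 2 * K := by omega
    have hd0 : dig m l (n * (2 * K) + r) = 0 := by
      rw [hdig, hdiv, Nat.div_eq_of_lt hr]
      omega
    unfold loss
    rw [hnode2 n r hr2, hwin n r hr2, hnodex, hwinx]
    by_cases hc : n ≠ nx ∧ n % W ≤ nx % W
    · rw [if_pos ⟨hd0, hc.1, hc.2⟩, if_pos hc]
      unfold massVw
      by_cases he : n % W = nx % W
      · rw [if_pos he, if_pos (by omega)]
      · rw [if_neg he, if_neg (by omega)]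
    · rw [if_neg (fun h2 => hc ⟨h2.2.1, h2.2.2⟩), if_neg hc]
  have hl1 : ∀ n r, r < K → loss m W h l (n * (2 * K) + (K + r)) jx = 0 := by
    intro n r hr
    have hd1 : dig m l (n * (2 * K) + (K + r)) = 1 := by
      rw [hdig, hdiv]
      have : (K + r) / K = 1 := by
        rw [Nat.add_comm, Nat.add_div_right _ hKpos, Nat.div_eq_of_lt hr]
      rw [this]
      omega
    unfold loss
    rw [if_neg]
    rintro ⟨h2, _⟩
    omega
  have hnonneg : ∀ j : ℕ, 0 ≤ (1 / |(j : ℝ) - jx|) * loss m W h l j jx := by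
    intro j
    exact mul_nonneg (by positivity) (loss_nonneg _ _ _ _ _ _)
  have hstep0 : ∑ j ∈ (range (2 ^ m)).erase jx, (1 / |(j : ℝ) - jx|) * loss m W h l j jx
      ≤ ∑ j ∈ range (2 ^ m), (1 / |(j : ℝ) - jx|) * loss m W h l j jx := by
    apply Finset.sum_le_sum_of_subset_of_nonneg (erase_subset _ _)
    intro j _ _
    exact hnonneg j
  refine hstep0.trans ?_
  have hexp : ∀ (F : ℕ → ℝ) (A : ℕ), ∑ j ∈ range (A * (2 * K)), F j
      = ∑ n ∈ range A, (∑ r ∈ range K, F (n * (2 * K) + r)
          + ∑ r ∈ range K, F (n * (2 * K) + (K + r))) := by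
    intro F A
    induction A with
    | zero => simp
    | succ A ih =>
      have h2K : 2 * K = K + K := by ring
      rw [Nat.add_mul, Nat.one_mul, Finset.sum_range_add, ih, Finset.sum_range_succ]
      congr 1
      conv_lhs => rw [h2K, Finset.sum_range_add]
      simp only [h2K]
  rw [hpow, hexp]
  refine le_trans (Finset.sum_le_sum fun n _ => ?_) (node_sum m W h l nx hnx hl hW hh)
  have hz : ∑ r ∈ range K, (1 / |((n * (2 * K) + (K + r) : ℕ) : ℝ) - jx|)
      * loss m W h l (n * (2 * K) + (K + r)) jx = 0 := by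
    apply Finset.sum_eq_zero
    intro r hr
    rw [hl1 n r (mem_range.mp hr), mul_zero]
  rw [hz, add_zero]
  have he : ∑ r ∈ range K, (1 / |((n * (2 * K) + r : ℕ) : ℝ) - jx|)
      * loss m W h l (n * (2 * K) + r) jx
      = ∑ r ∈ range K, (1 / |((n * (2 * K) + r : ℕ) : ℝ) - jx|)
        * (if n ≠ nx ∧ n % W ≤ nx % W then massVw h (nx % W - n % W) else 0) := by
    refine Finset.sum_congr rfl fun r hr => ?_
    rw [hl0 n r (mem_range.mp hr)]
  rw [he, ← Finset.sum_mul]
  unfold massPhi
  by_cases hc : n ≠ nx ∧ n % W ≤ nx % W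
  · rw [if_pos hc, if_pos hc, mul_comm]
    apply mul_le_mul_of_nonneg_left _ (vw_nonneg _ _)
    have := T_le m a nx rx n ham hrx1 hrx2 hc.1
    rw [← hjxe] at this
    exact this
  · rw [if_neg hc, if_neg hc, mul_zero]

end Vale.Agent.Lib.P091
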