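import Vale.Agent.Lib.P091.Defs

open Finset Real

namespace Vale.Agent.Lib.P091

private theorem win_lt (m W l j : ℕ) (hW : 1 ≤ W) : win m W l j < W := Nat.mod_lt _ (by omega)

private theorem level_gap (W l l' : ℕ) (h : l < l') : 2 * W * l + 2 * W ≤ 2 * W * l' := by
  have : 2 * W * (l + 1) ≤ 2 * W * l' := Nat.mul_le_mul_left _ h
  rw [mul_add, mul_one] at this
  exact this

private theorem ex_ge (E0 h W l w : ℕ) (hW : 1 ≤ W) (hh : 1 ≤ h) : E0 + l ≤ ex E0 h W l w := by
  unfold ex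
  have h1 : l ≤ 2 * W * l := by
    have : 1 * l ≤ (2 * W) * l := Nat.mul_le_mul_right _ (by omega)
    omega
  have h2 : 2 * W * l + (W - 1 - w) ≤ h * (2 * W * l + (W - 1 - w)) := by
    have := Nat.mul_le_mul_right (2 * W * l + (W - 1 - w)) hh
    omega
  omega

/-- the sum of the small shifts in an atom. -/
private theorem shift_sum_le (m E0 h W j : ℕ) (hW : 1 ≤ W) (hh : 1 ≤ h) :
    ∑ l ∈ Zer m j, 1 / (2 * (2 : ℝ) ^ ex E0 h W l (win m W l j)) ≤ ((2 : ℝ) ^ E0)⁻¹ := by
  have h1 : ∀ l ∈ Zer m j, 1 / (2 * (2 : ℝ) ^ ex E0 h W l (win m W l j)) ≤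
      (1 / (2 : ℝ)) ^ l * (((2 : ℝ) ^ E0)⁻¹ / 2) := by
    intro l _
    have hge := ex_ge E0 h W l (win m W l j) hW hh
    have h2 : (2 : ℝ) ^ (E0 + l) ≤ 2 ^ ex E0 h W l (win m W l j) :=
      pow_le_pow_right₀ (by norm_num) hge
    have h3 : (1 / (2 : ℝ)) ^ l * (((2 : ℝ) ^ E0)⁻¹ / 2) = 1 / (2 * 2 ^ (E0 + l)) := by
      rw [pow_add, one_div, inv_pow]
      field_simp
    rw [h3]
    apply one_div_le_one_div_of_le (by positivity)
    linarith
  have h4 := Finset.sum_le_sum h1
  refine h4.trans ?_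
  rw [← Finset.sum_mul]
  have h5 : ∑ l ∈ Zer m j, (1 / (2 : ℝ)) ^ l ≤ ∑ l ∈ range m, (1 / (2 : ℝ)) ^ l :=
    Finset.sum_le_sum_of_subset_of_nonneg (Finset.filter_subset _ _) (fun _ _ _ => by positivity)
  have h6 : ∑ l ∈ range m, (1 / (2 : ℝ)) ^ l ≤ 2 := sum_geometric_two_le m
  have h7 : (0 : ℝ) < ((2 : ℝ) ^ E0)⁻¹ := by positivity
  nlinarith

/-- The bound for the perturbation: every atom is within `2^(-E0)` of its grid point. -/
theorem atom_perturbation (m E0 h W j : ℕ) (hW : 1 ≤ W) (hh : 1 ≤ h) :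
    0 ≤ atom m E0 h W j - (j : ℝ) / (2 * 2 ^ m) ∧
      atom m E0 h W j - (j : ℝ) / (2 * 2 ^ m) ≤ ((2 : ℝ) ^ E0)⁻¹ := by
  unfold atom
  rw [add_sub_cancel_left]
  refine ⟨Finset.sum_nonneg fun l _ => by positivity, shift_sum_le m E0 h W j hW hh⟩

private theorem ex_inj (E0 h W l l' w w' : ℕ) (hW : 1 ≤ W) (hh : 1 ≤ h) (hw : w < W) (hw' : w' < W)
    (he : ex E0 h W l' w' = ex E0 h W l w) : l' = l ∧ w' = w := by
  unfold ex at he
  have h1 : h * (2 * W * l' + (W - 1 - w')) = h * (2 * W * l + (W - 1 - w)) := by omega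
  have h2 := Nat.eq_of_mul_eq_mul_left (by omega) h1
  have hl : l' = l := by
    rcases lt_trichotomy l' l with hlt | heq | hgt
    · have := level_gap W l' l hlt
      omega
    · exact heq
    · have := level_gap W l l' hgt
      omega
  subst hl
  refine ⟨rfl, ?_⟩
  omega

/-- the integer part of one pair, the half and the error. -/
private theorem pair_decomp (e' e : ℕ) :
    (2 : ℝ) ^ e' * (1 / (2 * 2 ^ e)) =
      (((if e < e' then (2 : ℤ) ^ (e' - e - 1) else 0 : ℤ)) : ℝ) + (if e' = e then 1 / 2 else 0)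
        + (if e' < e then (2 : ℝ) ^ e' * (1 / (2 * 2 ^ e)) else 0) := by
  rcases lt_trichotomy e' e with hlt | heq | hgt
  · simp [hlt, not_lt.mpr hlt.le, hlt.ne]
  · subst heq
    simp only [lt_irrefl, if_false, if_true, Int.cast_zero, zero_add, add_zero]
    have : (0:ℝ) < 2 ^ e' := by positivity
    field_simp
  · simp only [hgt, if_true, not_lt.mpr hgt.le, if_false, hgt.ne', add_zero]
    obtain ⟨d, rfl⟩ : ∃ d, e' = e + d + 1 := ⟨e' - e - 1, by omega⟩
    have : e + d + 1 - e - 1 = d := by omega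
    rw [this]
    push_cast
    have h0 : (0:ℝ) < 2 ^ e := by positivity
    rw [show e + d + 1 = e + (d + 1) by ring, pow_add, pow_succ]
    field_simp

/-- the count of pairs with equal exponents. -/
private theorem half_sum (m W h E0 j jx : ℕ) (hW : 1 ≤ W) (hh : 1 ≤ h) :
    ∑ l' ∈ Act m jx, ∑ l ∈ Zer m j,
      (if ex E0 h W l' (win m W l' jx) = ex E0 h W l (win m W l j) then (1 / 2 : ℝ) else 0)
      = (Gc m W j jx : ℝ) / 2 := by
  have h1 : ∀ l' ∈ Act m jx, ∑ l ∈ Zer m j,
      (if ex E0 h W l' (win m W l' jx) = ex E0 h W l (win m W l j) then (1 / 2 : ℝ) else 0)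
      = if dig m l' j = 0 ∧ win m W l' j = win m W l' jx then (1 / 2 : ℝ) else 0 := by
    intro l' hl'
    have hl'm : l' < m := by
      simp only [Act, Finset.mem_filter, Finset.mem_range] at hl'
      exact hl'.1
    split_ifs with hc
    · rw [Finset.sum_eq_single l']
      · rw [hc.2, if_pos rfl]
      · intro b hb hne
        rw [if_neg]
        intro heq
        have := (ex_inj E0 h W b l' (win m W b j) (win m W l' jx) hW hh (win_lt _ _ _ _ hW) (win_lt _ _ _ _ hW) heq).1
        exact hne this.symm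
      · intro hn
        exfalso
        apply hn
        simp only [Zer, Finset.mem_filter, Finset.mem_range]
        exact ⟨hl'm, hc.1⟩
    · apply Finset.sum_eq_zero
      intro l hl
      rw [if_neg]
      intro heq
      obtain ⟨e1, e2⟩ := ex_inj E0 h W l l' (win m W l j) (win m W l' jx) hW hh (win_lt _ _ _ _ hW) (win_lt _ _ _ _ hW) heq
      subst e1
      apply hc
      simp only [Zer, Finset.mem_filter, Finset.mem_range] at hl
      exact ⟨hl.2, e2.symm⟩
  rw [Finset.sum_congr rfl h1, Finset.sum_ite, Finset.sum_const_zero, add_zero, Finset.sum_const, nsmul_eq_mul]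
  unfold Gc
  ring

/-- the error of a pair. -/
private theorem err_pair (m W h E0 j jx l' l : ℕ) (hW : 1 ≤ W) (hh : 1 ≤ h) (hl : l ∈ Zer m j) :
    (if ex E0 h W l' (win m W l' jx) < ex E0 h W l (win m W l j) then
        (2 : ℝ) ^ ex E0 h W l' (win m W l' jx) * (1 / (2 * 2 ^ ex E0 h W l (win m W l j))) else 0)
      ≤ (if l = l' then (if dig m l' j = 0 ∧ win m W l' j < win m W l' jx then
            1 / (2 * (2 : ℝ) ^ (h * (win m W l' jx - win m W l' j))) else 0) else 0)
        + ((2 : ℝ) ^ (h * W))⁻¹ := by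
  have hρ : (0 : ℝ) < ((2 : ℝ) ^ (h * W))⁻¹ := by positivity
  have hw1 := win_lt m W l j hW
  have hw2 := win_lt m W l' jx hW
  have hs : ∀ x : ℝ, 0 ≤ x → 0 ≤ x + ((2 : ℝ) ^ (h * W))⁻¹ := fun x hx => by positivity
  split_ifs with h1 h2 h3
  · -- same level, error
    subst h2
    have hd : ex E0 h W l (win m W l j) = ex E0 h W l (win m W l jx) + h * (win m W l jx - win m W l j) := by
      unfold ex
      have : W - 1 - win m W l j = (W - 1 - win m W l jx) + (win m W l jx - win m W l j) := by omega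
      rw [this, ← add_assoc, mul_add, ← add_assoc]
    have : (2 : ℝ) ^ ex E0 h W l (win m W l jx) * (1 / (2 * 2 ^ ex E0 h W l (win m W l j)))
        = 1 / (2 * (2 : ℝ) ^ (h * (win m W l jx - win m W l j))) := by
      rw [hd, pow_add]
      field_simp
    rw [this]
    linarith
  · -- same level but the windows are not ordered: contradiction
    exfalso
    subst h2
    apply h3
    simp only [Zer, Finset.mem_filter, Finset.mem_range] at hl
    refine ⟨hl.2, ?_⟩
    by_contra hcon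
    have h5 : win m W l jx ≤ win m W l j := Nat.le_of_not_lt hcon
    unfold ex at h1
    have h6 : W - 1 - win m W l j ≤ W - 1 - win m W l jx := by omega
    have h7 : h * (2 * W * l + (W - 1 - win m W l j)) ≤ h * (2 * W * l + (W - 1 - win m W l jx)) :=
      Nat.mul_le_mul_left _ (by omega)
    omega
  · -- different levels
    rw [zero_add]
    have hlt : l' < l := by
      by_contra hcon
      have h5 : l < l' := by omega
      have h6 := level_gap W l l' h5
      unfold ex at h1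
      have h7 : h * (2 * W * l + (W - 1 - win m W l j)) ≤ h * (2 * W * l' + (W - 1 - win m W l' jx)) :=
        Nat.mul_le_mul_left _ (by omega)
      omega
    have h6 := level_gap W l' l hlt
    obtain ⟨d, hd⟩ : ∃ d, ex E0 h W l (win m W l j) = ex E0 h W l' (win m W l' jx) + h * W + d := by
      unfold ex
      have h7 : 2 * W * l' + (W - 1 - win m W l' jx) + W ≤ 2 * W * l + (W - 1 - win m W l j) := by omega
      have h8 : h * (2 * W * l' + (W - 1 - win m W l' jx) + W) ≤ h * (2 * W * l + (W - 1 - win m W l j)) :=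
        Nat.mul_le_mul_left _ h7
      rw [mul_add] at h8
      refine ⟨h * (2 * W * l + (W - 1 - win m W l j)) - (h * (2 * W * l' + (W - 1 - win m W l' jx)) + h * W), ?_⟩
      omega
    rw [hd]
    have h0 : (0:ℝ) < (2:ℝ) ^ ex E0 h W l' (win m W l' jx) := by positivity
    have h9 : (0:ℝ) < (2:ℝ) ^ (h * W) := by positivity
    have h10 : (1:ℝ) ≤ 2 ^ d := one_le_pow₀ (by norm_num)
    rw [pow_add, pow_add]
    rw [show (2 : ℝ) ^ ex E0 h W l' (win m W l' jx) * (1 / (2 * (2 ^ ex E0 h W l' (win m W l' jx) * 2 ^ (h * W) * 2 ^ d)))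
      = 1 / (2 * (2 ^ (h * W) * 2 ^ d)) by field_simp]
    rw [← one_div]
    apply one_div_le_one_div_of_le h9
    nlinarith
  · have : 0 ≤ (if dig m l' j = 0 ∧ win m W l' j < win m W l' jx then
            1 / (2 * (2 : ℝ) ^ (h * (win m W l' jx - win m W l' j))) else 0) := by
      split_ifs <;> positivity
    split_ifs at this ⊢ <;> first | linarith | positivity
  · have : (0:ℝ) ≤ 0 := le_refl _
    positivity
  · positivity

/-- The phase computation.  `actFreq + 2 K q` acts on the atom `j` as `G/2` modulo one, up to a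
small nonnegative error. -/
theorem phase (m W h E0 j jx q : ℕ) (hW : 1 ≤ W) (hh : 1 ≤ h) (hE : m + 1 ≤ E0) :
    ∃ (I : ℤ) (ε : ℝ), 0 ≤ ε ∧
      ε ≤ same m W h j jx + m ^ 2 * ((2 : ℝ) ^ (h * W))⁻¹ + 2 * 2 ^ m * q * ((2 : ℝ) ^ E0)⁻¹ ∧
      ((actFreq m E0 h W jx + 2 * 2 ^ m * q : ℕ) : ℝ) * atom m E0 h W j
        = I + (Gc m W j jx : ℝ) / 2 + ε := by
  set Ep : ℕ → ℕ := fun l' => ex E0 h W l' (win m W l' jx) with hEp
  set Eq : ℕ → ℕ := fun l => ex E0 h W l (win m W l j) with hEq
  -- the integer parts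
  set I1 : ℤ := ∑ l' ∈ Act m jx, (2 : ℤ) ^ (Ep l' - (m + 1)) * (j : ℤ) with hI1
  set I2 : ℤ := ∑ l' ∈ Act m jx, ∑ l ∈ Zer m j, (if Eq l < Ep l' then (2 : ℤ) ^ (Ep l' - Eq l - 1) else 0) with hI2
  set Er : ℝ := ∑ l' ∈ Act m jx, ∑ l ∈ Zer m j,
    (if Ep l' < Eq l then (2 : ℝ) ^ Ep l' * (1 / (2 * 2 ^ Eq l)) else 0) with hEr
  set S : ℝ := ∑ l ∈ Zer m j, 1 / (2 * (2 : ℝ) ^ Eq l) with hS
  refine ⟨I1 + q * j + I2, Er + 2 * 2 ^ m * q * S, ?_, ?_, ?_⟩
  · apply add_nonneg
    · apply Finset.sum_nonneg; intro l' _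
      apply Finset.sum_nonneg; intro l _
      split_ifs <;> positivity
    · apply mul_nonneg (by positivity)
      exact Finset.sum_nonneg fun l _ => by positivity
  · have h1 : S ≤ ((2 : ℝ) ^ E0)⁻¹ := shift_sum_le m E0 h W j hW hh
    have h2 : 2 * 2 ^ m * (q : ℝ) * S ≤ 2 * 2 ^ m * q * ((2 : ℝ) ^ E0)⁻¹ :=
      mul_le_mul_of_nonneg_left h1 (by positivity)
    have h3 : Er ≤ same m W h j jx + m ^ 2 * ((2 : ℝ) ^ (h * W))⁻¹ := by
      have h4 : ∀ l' ∈ Act m jx, ∑ l ∈ Zer m j,
          (if Ep l' < Eq l then (2 : ℝ) ^ Ep l' * (1 / (2 * 2 ^ Eq l)) else 0)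
          ≤ (if dig m l' j = 0 ∧ win m W l' j < win m W l' jx then
              1 / (2 * (2 : ℝ) ^ (h * (win m W l' jx - win m W l' j))) else 0)
            + m * ((2 : ℝ) ^ (h * W))⁻¹ := by
        intro l' _
        have h5 := Finset.sum_le_sum (fun l hl => err_pair m W h E0 j jx l' l hW hh hl)
        refine h5.trans ?_
        rw [Finset.sum_add_distrib, Finset.sum_const, nsmul_eq_mul]
        apply add_le_add
        · rw [Finset.sum_ite_eq']
          split_ifs <;> first | exact le_refl _ | positivity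
        · apply mul_le_mul_of_nonneg_right _ (by positivity)
          have : (Zer m j).card ≤ (range m).card := Finset.card_filter_le _ _
          rw [Finset.card_range] at this
          exact_mod_cast this
      have h6 := Finset.sum_le_sum h4
      refine h6.trans ?_
      rw [Finset.sum_add_distrib, Finset.sum_const, nsmul_eq_mul]
      apply add_le_add (le_refl _)
      have hc : ((Act m jx).card : ℝ) ≤ m := by
        have : (Act m jx).card ≤ (range m).card := Finset.card_filter_le _ _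
        rw [Finset.card_range] at this
        exact_mod_cast this
      have hρ : (0 : ℝ) < ((2 : ℝ) ^ (h * W))⁻¹ := by positivity
      have hm0 : (0 : ℝ) ≤ m := by positivity
      calc ((Act m jx).card : ℝ) * (m * ((2 : ℝ) ^ (h * W))⁻¹)
          ≤ m * (m * ((2 : ℝ) ^ (h * W))⁻¹) := mul_le_mul_of_nonneg_right hc (by positivity)
        _ = _ := by ring
    linarith
  · -- the identity
    have hpair : ∀ l' l : ℕ, (2 : ℝ) ^ Ep l' * (1 / (2 * 2 ^ Eq l)) =
        (((if Eq l < Ep l' then (2 : ℤ) ^ (Ep l' - Eq l - 1) else 0 : ℤ)) : ℝ) + (if Ep l' = Eq l then 1 / 2 else 0)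
        + (if Ep l' < Eq l then (2 : ℝ) ^ Ep l' * (1 / (2 * 2 ^ Eq l)) else 0) :=
      fun l' l => pair_decomp (Ep l') (Eq l)
    have hdouble : (∑ l' ∈ Act m jx, (2 : ℝ) ^ Ep l') * S = (I2 : ℝ) + (Gc m W j jx : ℝ) / 2 + Er := by
      have hh2 := half_sum m W h E0 j jx hW hh
      rw [hS, Finset.sum_mul_sum, ← hh2, hI2, hEr]
      push_cast
      rw [Finset.sum_congr rfl (fun l' _ => Finset.sum_congr rfl (fun l _ => hpair l' l))]
      have hcastI : ∀ x x1 : ℕ, (((if Eq x1 < Ep x then (2 : ℤ) ^ (Ep x - Eq x1 - 1) else 0 : ℤ)) : ℝ)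
          = if Eq x1 < Ep x then (2 : ℝ) ^ (Ep x - Eq x1 - 1) else 0 := by
        intro x x1
        split_ifs <;> simp
      simp only [Finset.sum_add_distrib, hcastI]
      rfl
    have hgrid : (∑ l' ∈ Act m jx, (2 : ℝ) ^ Ep l') * ((j : ℝ) / (2 * 2 ^ m)) = (I1 : ℝ) := by
      rw [hI1, Finset.sum_mul]
      push_cast
      apply Finset.sum_congr rfl
      intro l' _
      have hge : m + 1 ≤ Ep l' := by
        have := ex_ge E0 h W l' (win m W l' jx) hW hh
        simp only [hEp]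
        omega
      obtain ⟨d, hd⟩ : ∃ d, Ep l' = m + 1 + d := ⟨Ep l' - (m + 1), by omega⟩
      rw [hd, Nat.add_sub_cancel_left, pow_add, pow_succ]
      field_simp
    unfold atom actFreq
    have hcast : ((∑ l ∈ Act m jx, 2 ^ ex E0 h W l (win m W l jx) + 2 * 2 ^ m * q : ℕ) : ℝ)
        = (∑ l' ∈ Act m jx, (2 : ℝ) ^ Ep l') + 2 * 2 ^ m * q := by
      push_cast
      rfl
    rw [hcast]
    have hS' : ∑ l ∈ Zer m j, 1 / (2 * (2 : ℝ) ^ ex E0 h W l (win m W l j)) = S := rfl
    rw [hS', add_mul, mul_add, mul_add, hdouble, hgrid]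
    have hK : (0:ℝ) < 2 ^ m := by positivity
    have e5 : 2 * 2 ^ m * (q : ℝ) * ((j : ℝ) / (2 * 2 ^ m)) = q * j := by field_simp
    rw [e5]
    push_cast
    ring

/-- size of the active frequency -/
theorem actFreq_le (m E0 h W jx : ℕ) (hW : 1 ≤ W) :
    actFreq m E0 h W jx ≤ 2 ^ (E0 + 2 * h * W * m + m) := by
  unfold actFreq
  have h1 : ∀ l ∈ Act m jx, 2 ^ ex E0 h W l (win m W l jx) ≤ 2 ^ (E0 + 2 * h * W * m) := by
    intro l hl
    apply Nat.pow_le_pow_right (by norm_num)
    simp only [Act, Finset.mem_filter, Finset.mem_range] at hl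
    unfold ex
    have h2 := level_gap W l m hl.1
    have h3 : h * (2 * W * l + (W - 1 - win m W l jx)) ≤ h * (2 * W * m) :=
      Nat.mul_le_mul_left _ (by omega)
    have h4 : h * (2 * W * m) = 2 * h * W * m := by ring
    omega
  have h5 := Finset.sum_le_card_nsmul _ _ _ h1
  refine h5.trans ?_
  rw [smul_eq_mul, pow_add 2 (E0 + 2 * h * W * m) m, mul_comm]
  apply Nat.mul_le_mul_left
  have : (Act m jx).card ≤ (range m).card := Finset.card_filter_le _ _
  rw [Finset.card_range] at this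
  exact this.trans Nat.lt_two_pow_self.le

end Vale.Agent.Lib.P091
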