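import Vale.Agent.Lib.P091.Kernel
import Vale.Agent.Lib.P091.Bits
import Vale.Agent.Lib.P091.Phase
import Vale.Agent.Lib.P091.Mass

open Finset Real

namespace Vale.Agent.Lib.P091

/-- the frequency bound. -/
def Nmax (m : ℕ) : ℕ := 2 ^ (m + 20 + 2 * 10 * (256 * (m + 1)) * m + m + 1)

section geometry

variable {m E0 h W jx j : ℕ} {x ξ y : ℝ}

/-- the position of the point relative to the atoms. -/
theorem geom_lt (hm : 1 ≤ m) (hjx : jx < 2 ^ m) (h1 : 1 / 128 ≤ ξ) (h2 : ξ ≤ 2 / 128)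
    (hx : x = ((jx : ℝ) + ξ) / (2 * 2 ^ m)) (hy0 : (j : ℝ) / (2 * 2 ^ m) ≤ y)
    (hy1 : y ≤ (j : ℝ) / (2 * 2 ^ m) + 1 / (2 ^ 20 * 2 ^ m)) (hj : j < jx) :
    ((jx : ℝ) - j) / (2 * 2 ^ m) ≤ x - y ∧ x - y ≤ ((jx : ℝ) - j + 1) / (2 * 2 ^ m) ∧ x - y < 1 / 2 := by
  have hK : (0 : ℝ) < 2 ^ m := by positivity
  have hj' : (j : ℝ) + 1 ≤ jx := by exact_mod_cast hj
  have hjx' : (jx : ℝ) + 1 ≤ 2 ^ m := by exact_mod_cast hjx
  have e1 : 1 / ((2:ℝ) ^ 20 * 2 ^ m) ≤ ξ / (2 * 2 ^ m) := by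
    rw [div_le_div_iff₀ (by positivity) (by positivity)]
    nlinarith
  subst hx
  have e2 : ((jx : ℝ) + ξ) / (2 * 2 ^ m) - j / (2 * 2 ^ m) = ((jx : ℝ) - j) / (2 * 2 ^ m) + ξ / (2 * 2 ^ m) := by
    field_simp; ring
  have e3 : ξ / (2 * 2 ^ m) ≤ 1 / (2 * 2 ^ m) := by
    apply div_le_div_of_nonneg_right _ (by positivity); linarith
  have e4 : ((jx : ℝ) - j + 1) / (2 * 2 ^ m) = ((jx : ℝ) - j) / (2 * 2 ^ m) + 1 / (2 * 2 ^ m) := by
    field_simp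
  refine ⟨by linarith, by linarith, ?_⟩
  have e5 : 0 ≤ (j : ℝ) / (2 * 2 ^ m) := by positivity
  have e6 : ((jx : ℝ) + ξ) / (2 * 2 ^ m) < 1 / 2 := by
    rw [div_lt_div_iff₀ (by positivity) (by positivity)]
    nlinarith
  linarith

theorem geom_gt (hm : 1 ≤ m) (hj' : j < 2 ^ m) (h1 : 1 / 128 ≤ ξ) (h2 : ξ ≤ 2 / 128)
    (hx : x = ((jx : ℝ) + ξ) / (2 * 2 ^ m)) (hy0 : (j : ℝ) / (2 * 2 ^ m) ≤ y)
    (hy1 : y ≤ (j : ℝ) / (2 * 2 ^ m) + 1 / (2 ^ 20 * 2 ^ m)) (hj : jx < j) :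
    ((j : ℝ) - jx) / (4 * 2 ^ m) ≤ y - x ∧ y - x ≤ ((j : ℝ) - jx) / (2 * 2 ^ m) ∧ y - x < 1 / 2 := by
  have hK : (0 : ℝ) < 2 ^ m := by positivity
  have hj2 : (jx : ℝ) + 1 ≤ j := by exact_mod_cast hj
  have hj3 : (j : ℝ) + 1 ≤ 2 ^ m := by exact_mod_cast hj'
  have hjx0 : (0 : ℝ) ≤ jx := by positivity
  have e1 : 1 / ((2:ℝ) ^ 20 * 2 ^ m) ≤ ξ / (2 * 2 ^ m) := by
    rw [div_le_div_iff₀ (by positivity) (by positivity)]
    nlinarith
  subst hx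
  have e2 : j / (2 * 2 ^ m) - ((jx : ℝ) + ξ) / (2 * 2 ^ m) = ((j : ℝ) - jx) / (2 * 2 ^ m) - ξ / (2 * 2 ^ m) := by
    field_simp; ring
  have e3 : ξ / (2 * 2 ^ m) ≤ ((j : ℝ) - jx) / (4 * 2 ^ m) := by
    rw [div_le_div_iff₀ (by positivity) (by positivity)]
    nlinarith
  have e4 : ((j : ℝ) - jx) / (4 * 2 ^ m) = ((j : ℝ) - jx) / (2 * 2 ^ m) - ((j : ℝ) - jx) / (4 * 2 ^ m) := by
    field_simp; ring
  have e5 : (j : ℝ) / (2 * 2 ^ m) < 1 / 2 := by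
    rw [div_lt_div_iff₀ (by positivity) (by positivity)]
    nlinarith
  have e6 : 1 / ((2:ℝ) ^ 20 * 2 ^ m) ≤ 1 / 2 ^ 20 := by
    apply one_div_le_one_div_of_le (by positivity)
    have : (1:ℝ) ≤ 2 ^ m := one_le_pow₀ (by norm_num)
    nlinarith
  refine ⟨by linarith, by linarith, ?_⟩
  have e7 : ξ / (2 * 2 ^ m) ≤ ((jx : ℝ) + ξ) / (2 * 2 ^ m) := by
    apply div_le_div_of_nonneg_right _ (by positivity)
    linarith
  linarith

theorem geom_eq (hjx : jx < 2 ^ m) (h1 : 1 / 128 ≤ ξ) (h2 : ξ ≤ 2 / 128)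
    (hx : x = ((jx : ℝ) + ξ) / (2 * 2 ^ m)) (hy0 : (jx : ℝ) / (2 * 2 ^ m) ≤ y)
    (hy1 : y ≤ (jx : ℝ) / (2 * 2 ^ m) + 1 / (2 ^ 20 * 2 ^ m)) :
    1 / (512 * 2 ^ m) ≤ x - y ∧ x - y < 1 / 2 := by
  have hK : (0 : ℝ) < 2 ^ m := by positivity
  have hjx' : (jx : ℝ) + 1 ≤ 2 ^ m := by exact_mod_cast hjx
  subst hx
  have e2 : ((jx : ℝ) + ξ) / (2 * 2 ^ m) = jx / (2 * 2 ^ m) + ξ / (2 * 2 ^ m) := by
    field_simp
  have e3 : 1 / ((512 : ℝ) * 2 ^ m) + 1 / ((2:ℝ) ^ 20 * 2 ^ m) ≤ ξ / (2 * 2 ^ m) := by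
    have : 1 / ((512 : ℝ) * 2 ^ m) + 1 / ((2:ℝ) ^ 20 * 2 ^ m) = (1 / 512 + 1 / 2 ^ 20) / 2 ^ m := by
      field_simp
    rw [this]
    rw [show ξ / (2 * 2 ^ m) = (ξ / 2) / 2 ^ m by field_simp]
    apply div_le_div_of_nonneg_right _ hK.le
    norm_num
    linarith
  constructor
  · linarith
  · have : ((jx : ℝ) + ξ) / (2 * 2 ^ m) < 1 / 2 := by
      rw [div_lt_div_iff₀ (by positivity) (by positivity)]
      nlinarith
    have e5 : 0 ≤ (jx : ℝ) / (2 * 2 ^ m) := by positivity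
    linarith

end geometry

/-- the lower bound of one term, away from the own cell. -/
theorem term_lower (N t τ ε c : ℝ) (n : ℤ) (G : ℕ) (hb : Bool)
    (hN : N * t = n + 3 / 4 + τ - (G : ℝ) / 2 - ε)
    (hε : 0 ≤ ε)
    (hgood : hb = false → ((0 < t ∧ G = 1) ∨ (t < 0 ∧ G = 0)))
    (ht0 : t ≠ 0) (ht1 : |t| < 1 / 2)
    (hc : c ≤ 1 - 2 * π * |τ| - 2 * π * ε) (hc1 : c ≤ 1) :
    |cotp t| * c - (if hb then 2 * |cotp t| else 0)
      ≤ sin (2 * π * N * t) * cotp t := by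
  have hs := sin_phase N t τ ε n G hN
  have hcos : c ≤ cos (2 * π * (τ - ε)) := by
    have h1 := one_sub_abs_le_cos (2 * π * (τ - ε))
    have hpi : 0 ≤ 2 * π := by positivity
    have h2 : |2 * π * (τ - ε)| ≤ 2 * π * |τ| + 2 * π * ε := by
      rw [abs_mul, abs_of_nonneg hpi]
      have : |τ - ε| ≤ |τ| + |ε| := abs_sub _ _
      rw [abs_of_nonneg hε] at this
      nlinarith
    linarith
  have hab := abs_nonneg (cotp t)
  cases hb with
  | true =>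
    simp only [if_true]
    have h3 : |sin (2 * π * N * t) * cotp t| ≤ |cotp t| := by
      rw [abs_mul]
      have := abs_sin_le_one (2 * π * N * t)
      nlinarith
    have h4 := neg_abs_le (sin (2 * π * N * t) * cotp t)
    nlinarith
  | false =>
    simp only [Bool.false_eq_true, if_false, sub_zero]
    rcases hgood rfl with ⟨h0, hG⟩ | ⟨h0, hG⟩
    · have hpos : 0 < cotp t := cotp_pos t h0 (by rwa [abs_of_pos h0] at ht1)
      rw [hs, hG, abs_of_pos hpos]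
      norm_num
      nlinarith
    · have hneg : cotp t < 0 := cotp_neg t h0 (by
        rw [abs_of_neg h0] at ht1; linarith)
      rw [hs, hG, abs_of_neg hneg]
      norm_num
      nlinarith


/-- unified geometry away from the own cell. -/
theorem geom_ne {m jx j : ℕ} {x ξ y : ℝ} (hm : 1 ≤ m) (hj' : j < 2 ^ m) (hjx : jx < 2 ^ m)
    (h1 : 1 / 128 ≤ ξ) (h2 : ξ ≤ 2 / 128)
    (hx : x = ((jx : ℝ) + ξ) / (2 * 2 ^ m)) (hy0 : (j : ℝ) / (2 * 2 ^ m) ≤ y)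
    (hy1 : y ≤ (j : ℝ) / (2 * 2 ^ m) + 1 / (2 ^ 20 * 2 ^ m)) (hj : j ≠ jx) :
    (x - y ≠ 0) ∧ |x - y| < 1 / 2 ∧ |(j : ℝ) - jx| / (4 * 2 ^ m) ≤ |x - y| ∧
      |x - y| ≤ (|(j : ℝ) - jx| + 1) / (2 * 2 ^ m) ∧ (j < jx → 0 < x - y) ∧ (jx < j → x - y < 0) := by
  have hK : (0 : ℝ) < 2 ^ m := by positivity
  rcases lt_or_gt_of_ne hj with hlt | hgt
  · obtain ⟨g1, g2, g3⟩ := geom_lt hm hjx h1 h2 hx hy0 hy1 hlt
    have hjj : (j : ℝ) + 1 ≤ jx := by exact_mod_cast hlt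
    have hpos : 0 < (jx : ℝ) - j := by linarith
    have hd : 0 < ((jx : ℝ) - j) / (2 * 2 ^ m) := by positivity
    have hpos2 : 0 < x - y := by linarith
    have habs : |(j : ℝ) - jx| = (jx : ℝ) - j := by
      rw [abs_of_neg (by linarith)]; ring
    refine ⟨hpos2.ne', by rw [abs_of_pos hpos2]; exact g3, ?_, ?_, fun _ => hpos2, fun h => absurd h (by omega)⟩
    · rw [abs_of_pos hpos2, habs]
      refine le_trans ?_ g1
      apply div_le_div_of_nonneg_left hpos.le (by positivity)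
      nlinarith
    · rw [abs_of_pos hpos2, habs]; exact g2
  · obtain ⟨g1, g2, g3⟩ := geom_gt hm hj' h1 h2 hx hy0 hy1 hgt
    have hjj : (jx : ℝ) + 1 ≤ j := by exact_mod_cast hgt
    have hpos : 0 < (j : ℝ) - jx := by linarith
    have hd : 0 < ((j : ℝ) - jx) / (4 * 2 ^ m) := by positivity
    have hpos2 : 0 < y - x := by linarith
    have hneg : x - y < 0 := by linarith
    have habs : |(j : ℝ) - jx| = (j : ℝ) - jx := abs_of_pos hpos
    have habs2 : |x - y| = y - x := by rw [abs_of_neg hneg]; ring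
    refine ⟨hneg.ne, by rw [habs2]; exact g3, ?_, ?_, fun h => absurd h (by omega), fun _ => hneg⟩
    · rw [habs2, habs]; exact g1
    · rw [habs2, habs]
      refine le_trans g2 ?_
      apply div_le_div_of_nonneg_right _ (by positivity)
      linarith

theorem combine_bad (c0 p S Cot B L X : ℝ) (hT : Cot * (c0 - p * S) - 2 * Cot ≤ X)
    (hL : 2 + p * S ≤ L) (hCot : Cot ≤ B) (h0 : 0 ≤ Cot) (hL0 : 0 ≤ L) : c0 * Cot - B * L ≤ X := by
  have h1 : Cot * (2 + p * S) ≤ Cot * L := mul_le_mul_of_nonneg_left hL h0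
  have h2 : Cot * L ≤ B * L := mul_le_mul_of_nonneg_right hCot hL0
  nlinarith

theorem combine_good (c0 p S Cot B L X : ℝ) (hT : Cot * (c0 - p * S) ≤ X)
    (hL : p * S ≤ L) (hCot : Cot ≤ B) (h0 : 0 ≤ Cot) (hL0 : 0 ≤ L) : c0 * Cot - B * L ≤ X := by
  have h1 : Cot * (p * S) ≤ Cot * L := mul_le_mul_of_nonneg_left hL h0
  have h2 : Cot * L ≤ B * L := mul_le_mul_of_nonneg_right hCot hL0
  nlinarith

theorem arith_c (p τ ε S : ℝ) (hpi : 0 < p) (hτ : |τ| ≤ 1 / 64) (hε : ε ≤ S + 1 / 2048) :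
    1 - p / 32 - p / 1024 - 2 * p * S ≤ 1 - 2 * p * |τ| - 2 * p * ε := by
  nlinarith [mul_le_mul_of_nonneg_left hτ hpi.le, mul_le_mul_of_nonneg_left hε hpi.le]

theorem arith_c1 (p S : ℝ) (hpi : 0 < p) (hS : 0 ≤ S) : 1 - p / 32 - p / 1024 - 2 * p * S ≤ 1 := by
  nlinarith [mul_nonneg hpi.le hS]

theorem cot_bound (m : ℕ) (a t c : ℝ) (hc : c ≤ 1 / (π * |t|)) (hjj : 0 < a)
    (g2 : a / (4 * 2 ^ m) ≤ |t|) : c ≤ (4 * 2 ^ m / π) * (1 / a) := by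
  refine hc.trans ?_
  have hpi : 0 < π := pi_pos
  have hK : (0 : ℝ) < 2 ^ m := by positivity
  have : (4 * 2 ^ m / π) * (1 / a) = 1 / (π * (a / (4 * 2 ^ m))) := by
    field_simp
  rw [this]
  apply one_div_le_one_div_of_le (by positivity)
  exact mul_le_mul_of_nonneg_left g2 hpi.le

theorem err_small (m W q : ℕ) (hWW : 256 * (m + 1) ≤ W) (hq : q ≤ 128) :
    (m : ℝ) ^ 2 * ((2 : ℝ) ^ (10 * W))⁻¹ + 2 * 2 ^ m * (q : ℝ) * ((2 : ℝ) ^ (m + 20))⁻¹ ≤ 1 / 2048 := by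
  have hK : (0 : ℝ) < 2 ^ m := by positivity
  have hpow : ((2 : ℝ) ^ (m + 20))⁻¹ = 1 / (2 ^ 20 * 2 ^ m) := by
    rw [pow_add]; field_simp
  have herr1 : (m : ℝ) ^ 2 * ((2 : ℝ) ^ (10 * W))⁻¹ ≤ 1 / 4096 := by
    have hb : (m : ℝ) + 1 ≤ 2 ^ m := by
      have : m + 1 ≤ 2 ^ m := Nat.lt_two_pow_self
      exact_mod_cast this
    have hc : m + m + 12 ≤ 10 * W := by omega
    have h3 : (2 : ℝ) ^ (m + m + 12) ≤ 2 ^ (10 * W) := pow_le_pow_right₀ (by norm_num) hc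
    generalize (2 : ℝ) ^ (10 * W) = B at h3 ⊢
    have h4 : 0 < B := lt_of_lt_of_le (by positivity) h3
    rw [← div_eq_mul_inv, div_le_div_iff₀ h4 (by norm_num)]
    rw [pow_add, pow_add] at h3
    have hm0 : (0 : ℝ) ≤ m := by positivity
    have h5 : (m : ℝ) ^ 2 ≤ 2 ^ m * 2 ^ m := by nlinarith
    nlinarith
  have herr2 : 2 * 2 ^ m * (q : ℝ) * ((2 : ℝ) ^ (m + 20))⁻¹ ≤ 1 / 4096 := by
    have hq' : (q : ℝ) ≤ 128 := by exact_mod_cast hq
    rw [hpow]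
    have : 2 * 2 ^ m * (q : ℝ) * (1 / (2 ^ 20 * 2 ^ m)) = 2 * q / 2 ^ 20 := by
      field_simp
    rw [this]
    rw [div_le_div_iff₀ (by positivity) (by norm_num)]
    linarith
  linarith

/-- the per-atom estimate used in the main sum. -/
theorem term_ne (m W jx q j : ℕ) (hWW : 256 * (m + 1) ≤ W) (hm : 1 ≤ m) (hj' : j < 2 ^ m) (hjx : jx < 2 ^ m)
    (ξ τ : ℝ) (n : ℤ)
    (h1 : 1 / 128 ≤ ξ) (h2 : ξ ≤ 2 / 128) (hq : q ≤ 128) (hτ : |τ| ≤ 1 / 64)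
    (hNx : ((actFreq m (m + 20) 10 W jx + 2 * 2 ^ m * q : ℕ) : ℝ) * (((jx : ℝ) + ξ) / (2 * 2 ^ m))
      = n + q * jx + 3 / 4 + τ)
    (hj : j ≠ jx) :
    let N : ℕ := actFreq m (m + 20) 10 W jx + 2 * 2 ^ m * q
    let t : ℝ := ((jx : ℝ) + ξ) / (2 * 2 ^ m) - atom m (m + 20) 10 W j
    (1 - π / 32 - π / 1024) * |cotp t|
        - (4 * 2 ^ m / π) * (1 / |(j : ℝ) - jx|) * ∑ l ∈ Act m jx, loss m W 10 l j jx
      ≤ sin (2 * π * (N : ℝ) * t) * cotp t := by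
  intro N t
  have hW1 : 1 ≤ W := by omega
  obtain ⟨p1, p2⟩ := atom_perturbation m (m + 20) 10 W j hW1 (by norm_num)
  have hK : (0 : ℝ) < 2 ^ m := by positivity
  have hpow : ((2 : ℝ) ^ (m + 20))⁻¹ = 1 / (2 ^ 20 * 2 ^ m) := by
    rw [pow_add]; field_simp
  have hy0 : (j : ℝ) / (2 * 2 ^ m) ≤ atom m (m + 20) 10 W j := by linarith
  have hy1 : atom m (m + 20) 10 W j ≤ (j : ℝ) / (2 * 2 ^ m) + 1 / (2 ^ 20 * 2 ^ m) := by
    rw [← hpow]; linarith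
  obtain ⟨g0, g1, g2, g3, g4, g5⟩ := geom_ne (x := ((jx : ℝ) + ξ) / (2 * 2 ^ m)) hm hj' hjx h1 h2 rfl hy0 hy1 hj
  obtain ⟨I, ε, hε0, hε1, hphase⟩ := phase m W 10 (m + 20) j jx q hW1 (by norm_num) (by omega)
  have hsame : 0 ≤ same m W 10 j jx := by
    unfold same
    apply Finset.sum_nonneg
    intro l _
    split_ifs <;> positivity
  have herr := err_small m W q hWW hq
  have hε2 : ε ≤ same m W 10 j jx + 1 / 2048 := by linarith
  clear herr hε1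
  have hN : (N : ℝ) * t = ((n + q * jx - I : ℤ) : ℝ) + 3 / 4 + τ - (Gc m W j jx : ℝ) / 2 - ε := by
    have : (N : ℝ) * t = (N : ℝ) * (((jx : ℝ) + ξ) / (2 * 2 ^ m)) - (N : ℝ) * atom m (m + 20) 10 W j := by
      simp only [t]; ring
    rw [this]
    simp only [N]
    rw [hNx, hphase]
    push_cast
    ring
  have hpi : 0 < π := pi_pos
  have hjj : 0 < |(j : ℝ) - jx| := by
    rw [abs_pos, sub_ne_zero]; exact_mod_cast hj
  have hcot2 : |cotp t| ≤ (4 * 2 ^ m / π) * (1 / |(j : ℝ) - jx|) :=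
    cot_bound m _ t _ (cotp_abs_le t g0 g1) hjj g2
  have hLnn : 0 ≤ ∑ l ∈ Act m jx, loss m W 10 l j jx :=
    Finset.sum_nonneg fun l _ => loss_nonneg _ _ _ _ _ _
  have hc := arith_c π τ ε (same m W 10 j jx) hpi hτ hε2
  have hc1 := arith_c1 π (same m W 10 j jx) hpi hsame
  by_cases hB : Bad m W j jx
  · have hT := term_lower (N : ℝ) t τ ε (1 - π / 32 - π / 1024 - 2 * π * same m W 10 j jx) (n + q * jx - I)
      (Gc m W j jx) true hN hε0 (by simp) g0 g1 hc hc1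
    simp only [if_true] at hT
    exact combine_bad (1 - π / 32 - π / 1024) (2 * π) (same m W 10 j jx) |cotp t| _ _ _ hT
      (loss_sum_ge_bad m W 10 j jx hB) hcot2 (abs_nonneg _) hLnn
  · have hgood : false = false → ((0 < t ∧ Gc m W j jx = 1) ∨ (t < 0 ∧ Gc m W j jx = 0)) := by
      intro _
      obtain ⟨hg1, hg2⟩ := Gc_of_not_bad m W j jx hj' hjx hB
      rcases lt_or_gt_of_ne hj with hlt | hgt
      · exact Or.inl ⟨g4 hlt, hg1 hlt⟩
      · exact Or.inr ⟨g5 hgt, hg2 hgt⟩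
    have hT := term_lower (N : ℝ) t τ ε (1 - π / 32 - π / 1024 - 2 * π * same m W 10 j jx) (n + q * jx - I)
      (Gc m W j jx) false hN hε0 hgood g0 g1 hc hc1
    simp only [Bool.false_eq_true, if_false, sub_zero] at hT
    exact combine_good (1 - π / 32 - π / 1024) (2 * π) (same m W 10 j jx) |cotp t| _ _ _ hT
      (loss_sum_ge m W 10 j jx) hcot2 (abs_nonneg _) hLnn


theorem final_arith (m : ℝ) (hm : 2000 ≤ m) :
    m / 10 ≤ (1 - π / 32 - π / 1024) * ((m - 1) / π - π / 4) - m / (8 * π) - 512 / π - 1 := by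
  have hp1 : (3.14 : ℝ) < π := pi_gt_d2
  have hp2 : π < (3.15 : ℝ) := pi_lt_d2
  have hp0 : 0 < π := pi_pos
  set u : ℝ := 1 / π with hu
  have hu1 : (0.3174 : ℝ) ≤ u := by
    rw [hu, le_div_iff₀ hp0]; nlinarith
  have hu2 : u ≤ (0.32 : ℝ) := by
    rw [hu, div_le_iff₀ hp0]; nlinarith
  have e1 : (m - 1) / π = (m - 1) * u := by rw [hu]; ring
  have e2 : m / (8 * π) = m * u / 8 := by rw [hu]; field_simp
  have e3 : 512 / π = 512 * u := by rw [hu]; ring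
  rw [e1, e2, e3]
  have hc0 : (0.898 : ℝ) ≤ 1 - π / 32 - π / 1024 := by linarith
  have hbig : 0.3174 * (m - 1) - 0.7875 ≤ (m - 1) * u - π / 4 := by
    have : 0.3174 * (m - 1) ≤ (m - 1) * u := by
      have hm1 : 0 ≤ m - 1 := by linarith
      nlinarith
    linarith
  have hbig0 : 0 ≤ 0.3174 * (m - 1) - 0.7875 := by linarith
  have hprod : 0.898 * (0.3174 * (m - 1) - 0.7875) ≤
      (1 - π / 32 - π / 1024) * ((m - 1) * u - π / 4) :=
    mul_le_mul hc0 hbig hbig0 (by linarith)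
  have hmu : m * u ≤ m * 0.32 := by nlinarith
  have h512 : 512 * u ≤ 512 * 0.32 := by linarith
  nlinarith

/-- the sum of the losses. -/
theorem total_loss (m W jx : ℕ) (hjx : jx < 2 ^ m) (hWW : 256 * (m + 1) ≤ W) :
    ∑ j ∈ (range (2 ^ m)).erase jx, (1 / |(j : ℝ) - jx|) * ∑ l ∈ Act m jx, loss m W 10 l j jx
      ≤ (m : ℝ) / 32 := by
  have h1 : ∑ j ∈ (range (2 ^ m)).erase jx, (1 / |(j : ℝ) - jx|) * ∑ l ∈ Act m jx, loss m W 10 l j jx
      = ∑ l ∈ Act m jx, ∑ j ∈ (range (2 ^ m)).erase jx, (1 / |(j : ℝ) - jx|) * loss m W 10 l j jx := by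
    rw [Finset.sum_comm]
    apply Finset.sum_congr rfl
    intro j _
    rw [Finset.mul_sum]
  rw [h1]
  have h2 : ∀ l ∈ Act m jx, ∑ j ∈ (range (2 ^ m)).erase jx, (1 / |(j : ℝ) - jx|) * loss m W 10 l j jx ≤ 1 / 32 := by
    intro l hl
    simp only [Act, Finset.mem_filter, Finset.mem_range] at hl
    exact level_loss m W 10 l jx hl.1 hjx hl.2 hWW (le_refl _)
  have h3 := Finset.sum_le_card_nsmul _ _ _ h2
  have h4 : ((Act m jx).card : ℝ) ≤ m := by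
    have : (Act m jx).card ≤ (range m).card := Finset.card_filter_le _ _
    rw [Finset.card_range] at this
    exact_mod_cast this
  refine h3.trans ?_
  rw [nsmul_eq_mul]
  nlinarith

/-- the total mass of the cotangents from below. -/
theorem total_mass (m W jx : ℕ) (hm : 1 ≤ m) (hjx : jx < 2 ^ m) (hW1 : 1 ≤ W) (ξ : ℝ)
    (h1 : 1 / 128 ≤ ξ) (h2 : ξ ≤ 2 / 128) :
    (2 : ℝ) ^ m * (((m : ℝ) - 1) / π - π / 4) ≤
      ∑ j ∈ (range (2 ^ m)).erase jx, |cotp (((jx : ℝ) + ξ) / (2 * 2 ^ m) - atom m (m + 20) 10 W j)| := by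
  have hK : (0 : ℝ) < 2 ^ m := by positivity
  have hpi : 0 < π := pi_pos
  have hpow : ((2 : ℝ) ^ (m + 20))⁻¹ = 1 / (2 ^ 20 * 2 ^ m) := by
    rw [pow_add]; field_simp
  have hterm : ∀ j ∈ (range (2 ^ m)).erase jx,
      (2 * 2 ^ m / π) * (1 / (|(j : ℝ) - jx| + 1)) - π / 4 ≤
        |cotp (((jx : ℝ) + ξ) / (2 * 2 ^ m) - atom m (m + 20) 10 W j)| := by
    intro j hj
    rw [Finset.mem_erase, Finset.mem_range] at hj
    obtain ⟨p1, p2⟩ := atom_perturbation m (m + 20) 10 W j hW1 (by norm_num)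
    have hy0 : (j : ℝ) / (2 * 2 ^ m) ≤ atom m (m + 20) 10 W j := by linarith
    have hy1 : atom m (m + 20) 10 W j ≤ (j : ℝ) / (2 * 2 ^ m) + 1 / (2 ^ 20 * 2 ^ m) := by
      rw [← hpow]; linarith
    obtain ⟨g0, g1, g2, g3, g4, g5⟩ := geom_ne (x := ((jx : ℝ) + ξ) / (2 * 2 ^ m)) hm hj.2 hjx h1 h2 rfl hy0 hy1 hj.1
    refine le_trans ?_ (cotp_abs_ge _ g0 g1)
    have hd : 0 < |(j : ℝ) - jx| + 1 := by positivity
    have habs : 0 < |((jx : ℝ) + ξ) / (2 * 2 ^ m) - atom m (m + 20) 10 W j| := abs_pos.mpr g0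
    have : (2 * 2 ^ m / π) * (1 / (|(j : ℝ) - jx| + 1)) = 1 / (π * ((|(j : ℝ) - jx| + 1) / (2 * 2 ^ m))) := by
      field_simp
    rw [this]
    have : 1 / (π * ((|(j : ℝ) - jx| + 1) / (2 * 2 ^ m))) ≤
        1 / (π * |((jx : ℝ) + ξ) / (2 * 2 ^ m) - atom m (m + 20) 10 W j|) := by
      apply one_div_le_one_div_of_le (by positivity)
      exact mul_le_mul_of_nonneg_left g3 hpi.le
    linarith
  have hsum := Finset.sum_le_sum hterm
  refine le_trans ?_ hsum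
  rw [Finset.sum_sub_distrib, ← Finset.mul_sum, Finset.sum_const, nsmul_eq_mul]
  have hh := harmonic_lower m jx hm hjx
  have hcard : (((range (2 ^ m)).erase jx).card : ℝ) ≤ 2 ^ m := by
    have : ((range (2 ^ m)).erase jx).card ≤ (range (2 ^ m)).card := Finset.card_le_card (Finset.erase_subset _ _)
    rw [Finset.card_range] at this
    exact_mod_cast this
  have hA : (2 * (2:ℝ) ^ m / π) * (((m : ℝ) - 1) / 2) ≤
      (2 * 2 ^ m / π) * ∑ j ∈ (range (2 ^ m)).erase jx, 1 / (|(j : ℝ) - jx| + 1) := by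
    apply mul_le_mul_of_nonneg_left hh (by positivity)
  have hB : (((range (2 ^ m)).erase jx).card : ℝ) * (π / 4) ≤ 2 ^ m * (π / 4) :=
    mul_le_mul_of_nonneg_right hcard (by positivity)
  have hC : (2 * (2:ℝ) ^ m / π) * (((m : ℝ) - 1) / 2) = 2 ^ m * (((m : ℝ) - 1) / π) := by
    field_simp
  rw [mul_sub]
  linarith

/-- the main inequality for a general `W`. -/
theorem main_sum (m W jx : ℕ) (hm : 2000 ≤ m) (hWW : 256 * (m + 1) ≤ W) (hjx : jx < 2 ^ m) (ξ : ℝ)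
    (h1 : 1 / 128 ≤ ξ) (h2 : ξ ≤ 2 / 128) :
    ∃ q : ℕ, q ≤ 128 ∧ (m : ℝ) / 10 ≤ (1 / (2 : ℝ) ^ m) *
      ∑ j ∈ range (2 ^ m), dirichlet (actFreq m (m + 20) 10 W jx + 2 * 2 ^ m * q)
        (((jx : ℝ) + ξ) / (2 * 2 ^ m) - atom m (m + 20) 10 W j) := by
  have hm1 : 1 ≤ m := by omega
  have hW1 : 1 ≤ W := by omega
  have hK : (0 : ℝ) < 2 ^ m := by positivity
  have hpi : 0 < π := pi_pos
  have hpow : ((2 : ℝ) ^ (m + 20))⁻¹ = 1 / (2 ^ 20 * 2 ^ m) := by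
    rw [pow_add]; field_simp
  obtain ⟨q, hq, n, hn⟩ := exists_q ((actFreq m (m + 20) 10 W jx : ℝ) * (((jx : ℝ) + ξ) / (2 * 2 ^ m))) ξ h1 h2
  refine ⟨q, hq, ?_⟩
  set τ : ℝ := (actFreq m (m + 20) 10 W jx : ℝ) * (((jx : ℝ) + ξ) / (2 * 2 ^ m)) + q * ξ - n - 3 / 4 with hτdef
  have hNx : ((actFreq m (m + 20) 10 W jx + 2 * 2 ^ m * q : ℕ) : ℝ) * (((jx : ℝ) + ξ) / (2 * 2 ^ m))
      = n + q * jx + 3 / 4 + τ := by
    rw [hτdef]
    push_cast
    field_simp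
    ring
  set N : ℕ := actFreq m (m + 20) 10 W jx + 2 * 2 ^ m * q with hN
  set x : ℝ := ((jx : ℝ) + ξ) / (2 * 2 ^ m) with hx
  -- the kernel identity at every atom
  have hne : ∀ j ∈ (range (2 ^ m)).erase jx, sin (π * (x - atom m (m + 20) 10 W j)) ≠ 0 := by
    intro j hj
    rw [Finset.mem_erase, Finset.mem_range] at hj
    obtain ⟨p1, p2⟩ := atom_perturbation m (m + 20) 10 W j hW1 (by norm_num)
    have hy0 : (j : ℝ) / (2 * 2 ^ m) ≤ atom m (m + 20) 10 W j := by linarith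
    have hy1 : atom m (m + 20) 10 W j ≤ (j : ℝ) / (2 * 2 ^ m) + 1 / (2 ^ 20 * 2 ^ m) := by
      rw [← hpow]; linarith
    obtain ⟨g0, g1, -⟩ := geom_ne (x := x) hm1 hj.2 hjx h1 h2 rfl hy0 hy1 hj.1
    exact sin_pi_ne_zero _ g0 g1
  -- the own cell
  obtain ⟨p1, p2⟩ := atom_perturbation m (m + 20) 10 W jx hW1 (by norm_num)
  have hy0 : (jx : ℝ) / (2 * 2 ^ m) ≤ atom m (m + 20) 10 W jx := by linarith
  have hy1 : atom m (m + 20) 10 W jx ≤ (jx : ℝ) / (2 * 2 ^ m) + 1 / (2 ^ 20 * 2 ^ m) := by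
    rw [← hpow]; linarith
  obtain ⟨o1, o2⟩ := geom_eq (x := x) hjx h1 h2 rfl hy0 hy1
  have oo : 0 < 1 / ((512 : ℝ) * 2 ^ m) := by positivity
  have ot0 : x - atom m (m + 20) 10 W jx ≠ 0 := by
    have : 0 < x - atom m (m + 20) 10 W jx := by linarith
    exact this.ne'
  have otabs : |x - atom m (m + 20) 10 W jx| < 1 / 2 := by
    rw [abs_of_pos (by linarith)]; exact o2
  have hown : -(512 * 2 ^ m / π) ≤ sin (2 * π * (N : ℝ) * (x - atom m (m + 20) 10 W jx)) * cotp (x - atom m (m + 20) 10 W jx) := by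
    have hc := cotp_abs_le _ ot0 otabs
    have hs : |sin (2 * π * (N : ℝ) * (x - atom m (m + 20) 10 W jx)) * cotp (x - atom m (m + 20) 10 W jx)| ≤
        |cotp (x - atom m (m + 20) 10 W jx)| := by
      rw [abs_mul]
      have := abs_sin_le_one (2 * π * (N : ℝ) * (x - atom m (m + 20) 10 W jx))
      nlinarith [abs_nonneg (cotp (x - atom m (m + 20) 10 W jx))]
    have hb : 1 / (π * |x - atom m (m + 20) 10 W jx|) ≤ 512 * 2 ^ m / π := by
      rw [abs_of_pos (by linarith)]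
      have : 512 * (2:ℝ) ^ m / π = 1 / (π * (1 / (512 * 2 ^ m))) := by field_simp
      rw [this]
      apply one_div_le_one_div_of_le (by positivity)
      exact mul_le_mul_of_nonneg_left o1 hpi.le
    have := neg_abs_le (sin (2 * π * (N : ℝ) * (x - atom m (m + 20) 10 W jx)) * cotp (x - atom m (m + 20) 10 W jx))
    linarith
  -- splitting the sum
  have hjxmem : jx ∈ range (2 ^ m) := Finset.mem_range.mpr hjx
  have hsplit : ∑ j ∈ range (2 ^ m), dirichlet N (x - atom m (m + 20) 10 W j) =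
      ∑ j ∈ (range (2 ^ m)).erase jx, sin (2 * π * (N : ℝ) * (x - atom m (m + 20) 10 W j)) * cotp (x - atom m (m + 20) 10 W j)
      + sin (2 * π * (N : ℝ) * (x - atom m (m + 20) 10 W jx)) * cotp (x - atom m (m + 20) 10 W jx)
      + ∑ j ∈ range (2 ^ m), cos (2 * π * (N : ℝ) * (x - atom m (m + 20) 10 W j)) := by
    rw [← Finset.add_sum_erase _ _ hjxmem, ← Finset.add_sum_erase (range (2 ^ m)) (fun j => cos (2 * π * (N : ℝ) * (x - atom m (m + 20) 10 W j))) hjxmem]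
    rw [dirichlet_eq N _ (sin_pi_ne_zero _ ot0 otabs)]
    have : ∑ j ∈ (range (2 ^ m)).erase jx, dirichlet N (x - atom m (m + 20) 10 W j) =
        ∑ j ∈ (range (2 ^ m)).erase jx, (sin (2 * π * (N : ℝ) * (x - atom m (m + 20) 10 W j)) * cotp (x - atom m (m + 20) 10 W j)
          + cos (2 * π * (N : ℝ) * (x - atom m (m + 20) 10 W j))) := by
      apply Finset.sum_congr rfl
      intro j hj
      exact dirichlet_eq N _ (hne j hj)
    rw [this, Finset.sum_add_distrib]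
    ring
  -- the main bound
  have hmain : ∑ j ∈ (range (2 ^ m)).erase jx, ((1 - π / 32 - π / 1024) * |cotp (x - atom m (m + 20) 10 W j)|
        - (4 * 2 ^ m / π) * (1 / |(j : ℝ) - jx|) * ∑ l ∈ Act m jx, loss m W 10 l j jx) ≤
      ∑ j ∈ (range (2 ^ m)).erase jx, sin (2 * π * (N : ℝ) * (x - atom m (m + 20) 10 W j)) * cotp (x - atom m (m + 20) 10 W j) := by
    apply Finset.sum_le_sum
    intro j hj
    rw [Finset.mem_erase, Finset.mem_range] at hj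
    exact term_ne m W jx q j hWW hm1 hj.2 hjx ξ τ n h1 h2 hq hn hNx hj.1
  have hmass := total_mass m W jx hm1 hjx hW1 ξ h1 h2
  have hloss := total_loss m W jx hjx hWW
  have hcos : -(2:ℝ) ^ m ≤ ∑ j ∈ range (2 ^ m), cos (2 * π * (N : ℝ) * (x - atom m (m + 20) 10 W j)) := by
    have : ∑ j ∈ range (2 ^ m), (-1 : ℝ) ≤ ∑ j ∈ range (2 ^ m), cos (2 * π * (N : ℝ) * (x - atom m (m + 20) 10 W j)) :=
      Finset.sum_le_sum fun j _ => neg_one_le_cos _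
    simp only [Finset.sum_const, Finset.card_range, nsmul_eq_mul, mul_neg, mul_one] at this
    push_cast at this
    exact this
  have hc0 : 0 ≤ 1 - π / 32 - π / 1024 := by
    have := pi_lt_d2
    linarith
  rw [hsplit]
  rw [Finset.sum_sub_distrib, ← Finset.mul_sum] at hmain
  have hL2 : ∑ j ∈ (range (2 ^ m)).erase jx, (4 * 2 ^ m / π) * (1 / |(j : ℝ) - jx|) * ∑ l ∈ Act m jx, loss m W 10 l j jx
      = (4 * 2 ^ m / π) * ∑ j ∈ (range (2 ^ m)).erase jx, (1 / |(j : ℝ) - jx|) * ∑ l ∈ Act m jx, loss m W 10 l j jx := by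
    rw [Finset.mul_sum]
    apply Finset.sum_congr rfl
    intro j _
    ring
  rw [hL2] at hmain
  have hA : (1 - π / 32 - π / 1024) * ((2 : ℝ) ^ m * (((m : ℝ) - 1) / π - π / 4)) ≤
      (1 - π / 32 - π / 1024) * ∑ j ∈ (range (2 ^ m)).erase jx, |cotp (x - atom m (m + 20) 10 W j)| :=
    mul_le_mul_of_nonneg_left hmass hc0
  have hB : (4 * 2 ^ m / π) * ∑ j ∈ (range (2 ^ m)).erase jx, (1 / |(j : ℝ) - jx|) * ∑ l ∈ Act m jx, loss m W 10 l j jx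
      ≤ (4 * 2 ^ m / π) * ((m : ℝ) / 32) := mul_le_mul_of_nonneg_left hloss (by positivity)
  have hfin := final_arith (m : ℝ) (by exact_mod_cast hm)
  have hgoal : (2 : ℝ) ^ m * ((m : ℝ) / 10) ≤ ∑ j ∈ (range (2 ^ m)).erase jx, sin (2 * π * (N : ℝ) * (x - atom m (m + 20) 10 W j)) * cotp (x - atom m (m + 20) 10 W j)
      + sin (2 * π * (N : ℝ) * (x - atom m (m + 20) 10 W jx)) * cotp (x - atom m (m + 20) 10 W jx)
      + ∑ j ∈ range (2 ^ m), cos (2 * π * (N : ℝ) * (x - atom m (m + 20) 10 W j)) := by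
    have h5 : (2 : ℝ) ^ m * ((m : ℝ) / 10) ≤ (2 : ℝ) ^ m * ((1 - π / 32 - π / 1024) * (((m : ℝ) - 1) / π - π / 4) - (m : ℝ) / (8 * π) - 512 / π - 1) :=
      mul_le_mul_of_nonneg_left hfin hK.le
    have h6 : (2 : ℝ) ^ m * ((1 - π / 32 - π / 1024) * (((m : ℝ) - 1) / π - π / 4) - (m : ℝ) / (8 * π) - 512 / π - 1)
        = (1 - π / 32 - π / 1024) * ((2 : ℝ) ^ m * (((m : ℝ) - 1) / π - π / 4)) - (4 * 2 ^ m / π) * ((m : ℝ) / 32) - 512 * 2 ^ m / π - 2 ^ m := by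
      field_simp
      ring
    linarith
  rw [one_div, ← div_eq_inv_mul, le_div_iff₀ hK]
  linarith

/-- the main lemma: for every cell and every position in the sub-cell some frequency up to `Nmax m`
makes the average of the Dirichlet kernels at the atoms at least `m / 10`. -/
theorem main_lemma (m : ℕ) (hm : 2000 ≤ m) (jx : ℕ) (hjx : jx < 2 ^ m) (ξ : ℝ)
    (h1 : 1 / 128 ≤ ξ) (h2 : ξ ≤ 2 / 128) :
    ∃ N : ℕ, N ≤ Nmax m ∧ (m : ℝ) / 10 ≤ (1 / (2 : ℝ) ^ m) *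
      ∑ j ∈ range (2 ^ m), dirichlet N (((jx : ℝ) + ξ) / (2 * 2 ^ m) - atom m (m + 20) 10 (256 * (m + 1)) j) := by
  obtain ⟨q, hq, hS⟩ := main_sum m (256 * (m + 1)) jx hm (le_refl _) hjx ξ h1 h2
  refine ⟨_, ?_, hS⟩
  have h3 := actFreq_le m (m + 20) 10 (256 * (m + 1)) jx (by omega)
  have h4 : 2 * 2 ^ m * q ≤ 2 ^ (m + 20 + 2 * 10 * (256 * (m + 1)) * m + m) := by
    calc 2 * 2 ^ m * q ≤ 2 * 2 ^ m * 128 := Nat.mul_le_mul_left _ hq
      _ = 2 ^ (m + 8) := by rw [pow_add]; ring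
      _ ≤ _ := Nat.pow_le_pow_right (by norm_num) (by omega)
  unfold Nmax
  rw [pow_succ]
  omega

end Vale.Agent.Lib.P091
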